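import Vale.Agent.P068.Local

namespace Vale.Agent.P068

open Set Matroid Function

/-- the subset of `ℕ ⊕ ℕ` with left part `u` and right part `w` -/
def pr (u w : Set ℕ) : Set (ℕ ⊕ ℕ) := {x | Sum.elim (· ∈ u) (· ∈ w) x}

@[simp] lemma inl_mem_pr {u w : Set ℕ} {n : ℕ} : Sum.inl n ∈ pr u w ↔ n ∈ u := Iff.rfl
@[simp] lemma inr_mem_pr {u w : Set ℕ} {n : ℕ} : Sum.inr n ∈ pr u w ↔ n ∈ w := Iff.rfl

lemma compl_pr (u w : Set ℕ) : (pr u w)ᶜ = pr uᶜ wᶜ := by
  ext (n | n) <;> simp

/-- the gadget from which the counterexample is assembled -/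
structure Gadget where
  G : Matroid (ℕ ⊕ ℕ)
  ground : G.E = univ
  unif : Unif G
  W : Type
  r : W → W → Prop
  wf : WellFounded r
  W' : Type
  r' : W' → W' → Prop
  wf' : WellFounded r'
  big : W → Set ℕ → Prop
  small : W' → Set ℕ → Prop
  big_mono : ∀ a A B, big a A → A ⊆ B → big a B
  small_mono : ∀ a A B, small a A → B ⊆ A → small a B
  not_big : ∀ a, ¬ big a ∅
  not_small : ∀ a, ¬ small a univ
  dich : ∀ A, (∃ a, big a A) ∨ ∃ a, small a A
  hP : ∀ u w a, G.Spanning (pr u w) → small a u → ∃ b, r' b a ∧ small b wᶜ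
  hC : ∀ u w a, G.Indep (pr u w) → big a u → ∃ b, r b a ∧ big b wᶜ

lemma Gadget.ray (g : Gadget) (τ : ℕ → Prop) (u w : ℕ → Set ℕ)
    (h1 : ∀ n, τ n → g.G.Spanning (pr (u n) (w n)))
    (h2 : ∀ n, ¬ τ n → g.G.Indep (pr (u n) (w n)))
    (hPP : ∀ n, τ n → τ (n + 1) → u (n + 1) ⊆ (w n)ᶜ)
    (hCC : ∀ n, ¬ τ n → ¬ τ (n + 1) → (w n)ᶜ ⊆ u (n + 1))
    (hPC : ∀ n, τ n → ¬ τ (n + 1) → w n = ∅)
    (hCP : ∀ n, ¬ τ n → τ (n + 1) → w n = univ) :
    (∀ a n, τ n → ¬ g.small a (u n)) ∧ (∀ a n, ¬ τ n → ¬ g.big a (u n)) := by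
  constructor
  · intro a
    induction a using g.wf'.induction with
    | _ a ih =>
      intro n hn hs
      obtain ⟨b, hb, hs'⟩ := g.hP _ _ _ (h1 n hn) hs
      by_cases hn' : τ (n + 1)
      · exact ih b hb (n + 1) hn' (g.small_mono _ _ _ hs' (hPP n hn hn'))
      · rw [hPC n hn hn', compl_empty] at hs'
        exact g.not_small _ hs'
  · intro a
    induction a using g.wf.induction with
    | _ a ih =>
      intro n hn hs
      obtain ⟨b, hb, hs'⟩ := g.hC _ _ _ (h2 n hn) hs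
      by_cases hn' : τ (n + 1)
      · rw [hCP n hn hn', compl_univ] at hs'
        exact g.not_big _ hs'
      · exact ih b hb (n + 1) hn' (g.big_mono _ _ _ hs' (hCC n hn hn'))

/-- parent class of the vertex `v` -/
def par (v : ℤ) : ℤ := if v < 0 then v + 1 else v
/-- child class of the vertex `v` -/
def chi (v : ℤ) : ℤ := if v < 0 then v else v + 1

lemma par_ne_chi (v : ℤ) : par v ≠ chi v := by
  unfold par chi; split_ifs <;> omega

/-- embedding of the two classes at `v` -/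
def emb (v : ℤ) : ℕ ⊕ ℕ ↪ ℤ × ℕ where
  toFun := Sum.elim (fun n => (par v, n)) (fun n => (chi v, n))
  inj' := by
    have := par_ne_chi v
    rintro (a | a) (b | b) h <;> simp_all [eq_comm]

@[simp] lemma emb_inl (v : ℤ) (n : ℕ) : emb v (Sum.inl n) = (par v, n) := rfl
@[simp] lemma emb_inr (v : ℤ) (n : ℕ) : emb v (Sum.inr n) = (chi v, n) := rfl

lemma mem_range_emb {v : ℤ} {p : ℤ × ℕ} : p ∈ range (emb v) ↔ p.1 = v ∨ p.1 = v + 1 := by
  obtain ⟨a, n⟩ := p
  constructor
  · rintro ⟨x | x, hx⟩ <;> simp only [emb_inl, emb_inr, Prod.mk.injEq, par, chi] at hx <;>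
      split_ifs at hx <;> omega
  · intro h
    by_cases h1 : a = par v
    · exact ⟨Sum.inl n, by simp [h1]⟩
    · refine ⟨Sum.inr n, ?_⟩
      simp only [emb_inr, Prod.mk.injEq, and_true]
      unfold par at h1; unfold chi
      split_ifs at h1 ⊢ <;> omega

/-- the matroid at the vertex `v` -/
noncomputable def Gadget.vert (g : Gadget) (v : ℤ) : Matroid (ℤ × ℕ) :=
  (if v < 0 then g.G else g.G✶).mapEmbedding (emb v)

lemma Gadget.vert_ground (g : Gadget) (v : ℤ) : (g.vert v).E = range (emb v) := by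
  unfold Gadget.vert
  split_ifs <;> simp [g.ground]

lemma mapEmb_spanning {α β : Type*} {M : Matroid α} (hM : M.E = univ) (f : α ↪ β) {X : Set β}
    (h : (M.mapEmbedding f).Spanning X) : M.Spanning (f ⁻¹' X) := by
  obtain ⟨B, hB, hBX⟩ := h.exists_isBase_subset
  rw [mapEmbedding_isBase_iff] at hB
  exact hB.1.spanning_of_superset (preimage_mono hBX) (by rw [hM]; exact subset_univ _)

lemma Unif.mapEmbedding {α β : Type*} {M : Matroid α} (hM : M.E = univ) (h : Unif M) (f : α ↪ β) :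
    Unif (M.mapEmbedding f) := by
  intro X hX
  have hX' : X ⊆ range f := by simpa [hM] using hX
  rcases h (f ⁻¹' X) (by rw [hM]; exact subset_univ _) with h1 | h1
  · left; rw [mapEmbedding_indep_iff]; exact ⟨h1, hX'⟩
  · right
    obtain ⟨B, hB, hBX⟩ := h1.exists_isBase_subset
    exact (hB.mapEmbedding f).spanning_of_superset (image_subset_iff.2 hBX) hX

lemma Gadget.vert_unif (g : Gadget) (v : ℤ) : Unif (g.vert v) := by
  unfold Gadget.vert
  split_ifs
  · exact g.unif.mapEmbedding g.ground _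
  · exact g.unif.dual.mapEmbedding (by simp [g.ground]) _

lemma preimage_emb (v : ℤ) (X : Set (ℤ × ℕ)) :
    emb v ⁻¹' X = pr {n | (par v, n) ∈ X} {n | (chi v, n) ∈ X} := by
  ext (n | n) <;> simp

lemma Gadget.no_orient (g : Gadget) (τ : ℤ → Prop) (X : ℤ → Set (ℤ × ℕ))
    (h1 : ∀ v, τ v → (g.vert v).Spanning (X v))
    (h2 : ∀ v, ¬ τ v → (g.vert v).Indep (X v))
    (hPP : ∀ v n, τ v → τ (v + 1) → (v + 1, n) ∈ X v → (v + 1, n) ∉ X (v + 1))
    (hCC : ∀ v n, ¬ τ v → ¬ τ (v + 1) → (v + 1, n) ∉ X v → (v + 1, n) ∈ X (v + 1))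
    (hPC : ∀ v n, τ v → ¬ τ (v + 1) → (v + 1, n) ∉ X v ∧ (v + 1, n) ∈ X (v + 1))
    (hCP : ∀ v n, ¬ τ v → τ (v + 1) → (v + 1, n) ∈ X v ∧ (v + 1, n) ∉ X (v + 1)) : False := by
  have hE : ∀ Y : Set (ℕ ⊕ ℕ), Y ⊆ g.G.E := fun Y => by rw [g.ground]; exact subset_univ _
  -- left ray
  have hL := g.ray (fun n => τ (-(n : ℤ) - 1)) (fun n => {k | (-(n : ℤ), k) ∈ X (-(n : ℤ) - 1)})
    (fun n => {k | (-(n : ℤ) - 1, k) ∈ X (-(n : ℤ) - 1)}) ?_ ?_ ?_ ?_ ?_ ?_
  rotate_left
  · intro n hn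
    have h := h1 _ hn
    have hv : -(n : ℤ) - 1 < 0 := by omega
    rw [Gadget.vert, if_pos hv] at h
    have := mapEmb_spanning g.ground _ h
    rw [preimage_emb, par, chi, if_pos hv, if_pos hv, sub_add_cancel] at this
    exact this
  · intro n hn
    have h := h2 _ hn
    have hv : -(n : ℤ) - 1 < 0 := by omega
    rw [Gadget.vert, if_pos hv, mapEmbedding_indep_iff] at h
    have := h.1
    rw [preimage_emb, par, chi, if_pos hv, if_pos hv, sub_add_cancel] at this
    exact this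
  · intro n hn hn' k hk
    have e1 : (-((n + 1 : ℕ) : ℤ) - 1) + 1 = -(n : ℤ) - 1 := by push_cast; ring
    have e2 : (-((n + 1 : ℕ) : ℤ)) = -(n : ℤ) - 1 := by push_cast; ring
    have := hPP (-((n + 1 : ℕ) : ℤ) - 1) k hn' (by rw [e1]; exact hn)
    rw [e1] at this
    apply this
    simp only [mem_ofPred_eq] at hk
    rw [← e2]; exact hk
  · intro n hn hn' k hk
    have e1 : (-((n + 1 : ℕ) : ℤ) - 1) + 1 = -(n : ℤ) - 1 := by push_cast; ring
    have e2 : (-((n + 1 : ℕ) : ℤ)) = -(n : ℤ) - 1 := by push_cast; ring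
    have := hCC (-((n + 1 : ℕ) : ℤ) - 1) k hn' (by rw [e1]; exact hn)
    rw [e1] at this
    by_contra hc
    apply hk
    apply this
    simp only [mem_ofPred_eq] at hc
    rw [← e2]; exact hc
  · intro n hn hn'
    have e1 : (-((n + 1 : ℕ) : ℤ) - 1) + 1 = -(n : ℤ) - 1 := by push_cast; ring
    rw [eq_empty_iff_forall_notMem]
    intro k
    have := hCP (-((n + 1 : ℕ) : ℤ) - 1) k hn' (by rw [e1]; exact hn)
    rw [e1] at this
    exact this.2
  · intro n hn hn'
    have e1 : (-((n + 1 : ℕ) : ℤ) - 1) + 1 = -(n : ℤ) - 1 := by push_cast; ring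
    rw [eq_univ_iff_forall]
    intro k
    have := hPC (-((n + 1 : ℕ) : ℤ) - 1) k hn' (by rw [e1]; exact hn)
    rw [e1] at this
    exact this.2
  -- right ray
  have hR := g.ray (fun n => ¬ τ n) (fun n => {k | ((n : ℤ), k) ∉ X n})
    (fun n => {k | ((n : ℤ) + 1, k) ∉ X n}) ?_ ?_ ?_ ?_ ?_ ?_
  rotate_left
  · intro n hn
    have h := h2 _ hn
    have hv : ¬ (n : ℤ) < 0 := by omega
    rw [Gadget.vert, if_neg hv, mapEmbedding_indep_iff] at h
    have := h.1
    rw [preimage_emb, par, chi, if_neg hv, if_neg hv, ← coindep_def,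
      coindep_iff_compl_spanning (hE _), g.ground, ← compl_eq_univ_sdiff, compl_pr] at this
    exact this
  · intro n hn
    have h := h1 _ (not_not.1 hn)
    have hv : ¬ (n : ℤ) < 0 := by omega
    rw [Gadget.vert, if_neg hv] at h
    have := mapEmb_spanning (M := g.G✶) g.ground _ h
    rw [preimage_emb, par, chi, if_neg hv, if_neg hv, spanning_iff_compl_coindep (M := g.G✶) (hE _),
      dual_coindep_iff, dual_ground, g.ground, ← compl_eq_univ_sdiff, compl_pr] at this
    exact this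
  · intro n hn hn' k hk hk'
    push_cast at hn' hk
    exact hk (hCC n k hn hn' hk')
  · intro n hn hn' k hk
    push_cast at hn' ⊢
    exact hPP n k (not_not.1 hn) (not_not.1 hn') (not_not.1 hk)
  · intro n hn hn'
    push_cast at hn'
    rw [eq_empty_iff_forall_notMem]
    intro k hk
    exact hk (hCP n k hn (not_not.1 hn')).1
  · intro n hn hn'
    push_cast at hn'
    rw [eq_univ_iff_forall]
    intro k
    exact (hPC n k (not_not.1 hn) hn').1
  have hL1 := fun a => hL.1 a 0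
  have hL2 := fun a => hL.2 a 0
  have hR1 := fun a => hR.1 a 0
  have hR2 := fun a => hR.2 a 0
  simp only [Nat.cast_zero, neg_zero, zero_sub, not_not] at hL1 hL2 hR1 hR2
  have e0 : (-1 : ℤ) + 1 = 0 := by norm_num
  have cPP := fun n => hPP (-1) n
  have cCC := fun n => hCC (-1) n
  have cPC := fun n => hPC (-1) n
  have cCP := fun n => hCP (-1) n
  rw [e0] at cPP cCC cPC cCP
  rcases g.dich {k | ((0 : ℤ), k) ∈ X (-1)} with ⟨a, ha⟩ | ⟨a, ha⟩
  · by_cases hl : τ (-1)
    · by_cases hr : τ 0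
      · exact hR2 a hr (g.big_mono _ _ _ ha fun k hk => cPP k hl hr hk)
      · refine g.not_big a (g.big_mono _ _ _ ha fun k hk => ?_)
        exact absurd hk (cPC k hl hr).1
    · exact hL2 a hl ha
  · by_cases hl : τ (-1)
    · exact hL1 a hl ha
    · by_cases hr : τ 0
      · exact g.not_small a (g.small_mono _ _ _ ha fun k _ => (cCP k hl hr).1)
      · refine hR1 a hr (g.small_mono _ _ _ ha fun k hk => ?_)
        by_contra hc
        exact hk (cCC k hl hr hc)

/-- sum of the vertex matroids over the vertices of parity `b` -/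
lemma Gadget.pw (g : Gadget) (b : ℤ) :
    Pairwise (Disjoint on fun i : ℤ ↦ (g.vert (2 * i + b)).E) := by
  intro i j hij
  simp only [onFun, g.vert_ground]
  rw [disjoint_left]
  intro p hp hq
  rw [mem_range_emb] at hp hq
  omega

lemma Gadget.cover (g : Gadget) (b : ℤ) : (⋃ i : ℤ, (g.vert (2 * i + b)).E) = univ := by
  rw [eq_univ_iff_forall]
  intro p
  simp only [mem_iUnion, g.vert_ground, mem_range_emb]
  exact ⟨(p.1 - b) / 2, by omega⟩

/-- the two matroids -/
noncomputable def Gadget.side (g : Gadget) (b : ℤ) : Matroid (ℤ × ℕ) :=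
  Matroid.disjointSigma (fun i : ℤ => g.vert (2 * i + b)) (g.pw b)

lemma Gadget.side_ground (g : Gadget) (b : ℤ) : (g.side b).E = univ := by
  rw [Gadget.side, disjointSigma_ground_eq, g.cover]

lemma mem_left (g : Gadget) (v : ℤ) (n : ℕ) : (v + 1, n) ∈ (g.vert v).E := by
  rw [g.vert_ground, mem_range_emb]; simp

lemma mem_right (g : Gadget) (v : ℤ) (n : ℕ) : (v + 1, n) ∈ (g.vert (v + 1)).E := by
  rw [g.vert_ground, mem_range_emb]; simp

theorem Gadget.not_pc (g : Gadget) : ¬ HasPackingCovering univ ![g.side 0, g.side 1] := by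
  rintro ⟨P, C, S, I, hPC, hPC', hS, hI, hSd, hcl, hind, hcov⟩
  let c : ℤ → Fin 2 := fun v => if v % 2 = 0 then 0 else 1
  have hc : ∀ v, c v ≠ c (v + 1) := by
    intro v; simp only [c]; split_ifs <;> omega
  have hall : ∀ v j, j = c v ∨ j = c (v + 1) := by
    intro v j
    have := hc v
    revert this
    generalize c v = a
    generalize c (v + 1) = b
    revert a b j; decide
  have key : ∀ v, ((g.vert v).Spanning (S (c v) ∩ (g.vert v).E) ∧ I (c v) ∩ (g.vert v).E = ∅) ∨
      (P ∩ (g.vert v).E ⊆ S (c v) ∧ (g.vert v).Indep ((I (c v) ∪ P) ∩ (g.vert v).E)) := by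
    intro v
    by_cases hv : v % 2 = 0
    · have e : v = 2 * (v / 2) + 0 := by omega
      have := pc_local (h := g.pw 0) (g.cover 0) (fun i => g.vert_unif _) hPC hPC' (hS 0) (hI 0)
        (hcl 0) (hind 0) (v / 2)
      simp only [c, if_pos hv]
      rw [← e] at this
      exact this
    · have e : v = 2 * (v / 2) + 1 := by omega
      have := pc_local (h := g.pw 1) (g.cover 1) (fun i => g.vert_unif _) hPC hPC' (hS 1) (hI 1)
        (hcl 1) (hind 1) (v / 2)
      simp only [c, if_neg hv]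
      rw [← e] at this
      exact this
  let τ : ℤ → Prop := fun v =>
    (g.vert v).Spanning (S (c v) ∩ (g.vert v).E) ∧ I (c v) ∩ (g.vert v).E = ∅
  have keyC : ∀ v, ¬ τ v →
      (P ∩ (g.vert v).E ⊆ S (c v) ∧ (g.vert v).Indep ((I (c v) ∪ P) ∩ (g.vert v).E)) :=
    fun v hv => (key v).resolve_left hv
  have hmem : ∀ p, p ∈ P ∨ ∃ j, p ∈ I j := by
    intro p
    have : p ∈ P ∪ C := by rw [hPC']; trivial
    rcases this with h | h
    · exact Or.inl h
    · rw [← hcov, mem_iUnion] at h; exact Or.inr h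
  have hτ : ∀ v p, τ v → p ∈ (g.vert v).E → p ∉ I (c v) := fun v p hv hp hpi => by
    have : p ∈ I (c v) ∩ (g.vert v).E := ⟨hpi, hp⟩
    rw [hv.2] at this; exact this
  -- the statement for an edge between a packing vertex `a` and a covering vertex `b`
  have hmix : ∀ a b p, c a ≠ c b → (∀ j, j = c a ∨ j = c b) → τ a → ¬ τ b → p ∈ (g.vert a).E →
      p ∈ (g.vert b).E → p ∉ (S (c a) ∪ I (c a)) ∩ (g.vert a).E ∧
        p ∈ (S (c b) ∪ I (c b)) ∩ (g.vert b).E := by
    intro a b p hab hj ha hb hpa hpb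
    constructor
    · rintro ⟨h | h, -⟩
      · exact disjoint_left.1 (hSd _ _ hab) h ((keyC b hb).1 ⟨hS _ h, hpb⟩)
      · exact hτ a p ha hpa h
    · refine ⟨?_, hpb⟩
      rcases hmem p with h | ⟨j, h⟩
      · exact Or.inl ((keyC b hb).1 ⟨h, hpb⟩)
      · rcases hj j with rfl | rfl
        · exact absurd h (hτ a p ha hpa)
        · exact Or.inr h
  refine g.no_orient τ (fun v => (S (c v) ∪ I (c v)) ∩ (g.vert v).E) ?_ ?_ ?_ ?_ ?_ ?_
  · intro v hv
    exact hv.1.superset (inter_subset_inter_left _ subset_union_left) inter_subset_right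
  · intro v hv
    refine (keyC v hv).2.subset (inter_subset_inter_left _ ?_)
    exact union_subset ((hS _).trans subset_union_right) subset_union_left
  · rintro v n hv hv' ⟨h1 | h1, h2⟩ ⟨h3 | h3, h4⟩
    · exact disjoint_left.1 (hSd _ _ (hc v)) h1 h3
    · exact hτ _ _ hv' h4 h3
    · exact hτ _ _ hv h2 h1
    · exact hτ _ _ hv h2 h1
  · intro v n hv hv' h1
    refine ⟨?_, mem_right g v n⟩
    rcases hmem (v + 1, n) with h | ⟨j, h⟩
    · exact Or.inl ((keyC _ hv').1 ⟨h, mem_right g v n⟩)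
    · rcases hall v j with rfl | rfl
      · exact absurd ⟨Or.inr h, mem_left g v n⟩ h1
      · exact Or.inr h
  · intro v n hv hv'
    exact hmix v (v + 1) _ (hc v) (hall v) hv hv' (mem_left g v n) (mem_right g v n)
  · intro v n hv hv'
    exact (hmix (v + 1) v _ (hc v).symm (fun j => (hall v j).symm) hv' hv (mem_right g v n)
      (mem_left g v n)).symm

theorem Gadget.not_int (g : Gadget) : ¬ SatisfiesIntersection univ (g.side 0) (g.side 1)✶ := by
  rintro ⟨J, JM, JN, hM, hN, hd, hu, hcl⟩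
  have hJM : JM ⊆ J := hu ▸ subset_union_left
  have hJN : JN ⊆ J := hu ▸ subset_union_right
  have kM : ∀ v, v % 2 = 0 → (g.vert v).Indep (J ∩ (g.vert v).E) ∧
      (((g.vert v).Spanning (J ∩ (g.vert v).E) ∧ J ∩ (g.vert v).E ⊆ JM) ∨
        (g.side 0).closure JM ∩ (g.vert v).E ⊆ JM) := by
    intro v hv
    have e : v = 2 * (v / 2) + 0 := by omega
    have := int_local (h := g.pw 0) (g.cover 0) (fun i => g.vert_unif _) hM hJM (v / 2)
    rw [← e] at this
    exact this
  have kN : ∀ v, ¬ v % 2 = 0 → (g.vert v)✶.Indep (J ∩ (g.vert v).E) ∧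
      (((g.vert v)✶.Spanning (J ∩ (g.vert v).E) ∧ J ∩ (g.vert v).E ⊆ JN) ∨
        (g.side 1)✶.closure JN ∩ (g.vert v).E ⊆ JN) := by
    intro v hv
    have e : v = 2 * (v / 2) + 1 := by omega
    rw [Gadget.side, disjointSigma_dual] at hN ⊢
    have := int_local (h := dual_pairwise (g.pw 1)) (g.cover 1)
      (fun i => (g.vert_unif _).dual) hN hJN (v / 2)
    rw [← e] at this
    exact this
  let τ : ℤ → Prop := fun v => if v % 2 = 0 then
    (g.vert v).Spanning (J ∩ (g.vert v).E) ∧ J ∩ (g.vert v).E ⊆ JM else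
    ¬ ((g.vert v)✶.Spanning (J ∩ (g.vert v).E) ∧ J ∩ (g.vert v).E ⊆ JN)
  let X : ℤ → Set (ℤ × ℕ) := fun v => if v % 2 = 0 then J ∩ (g.vert v).E else
    (g.vert v).E \ (J ∩ (g.vert v).E)
  have hXe : ∀ v p, v % 2 = 0 → p ∈ (g.vert v).E → (p ∈ X v ↔ p ∈ J) := by
    intro v p hv hp; simp only [X, if_pos hv, mem_inter_iff, hp, and_true]
  have hXo : ∀ v p, ¬ v % 2 = 0 → p ∈ (g.vert v).E → (p ∈ X v ↔ p ∉ J) := by
    intro v p hv hp; simp only [X, if_neg hv, mem_sdiff, mem_inter_iff, hp, and_true, true_and]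
  -- tight/tight and loose/loose edges
  have htt : ∀ a b p, a % 2 = 0 → ¬ b % 2 = 0 → p ∈ (g.vert a).E → p ∈ (g.vert b).E →
      τ a → ¬ τ b → p ∉ J := by
    intro a b p ha hb hpa hpb h1 h2 hJ
    simp only [τ, if_pos ha, if_neg hb, not_not] at h1 h2
    exact disjoint_left.1 hd (h1.2 ⟨hJ, hpa⟩) (h2.2 ⟨hJ, hpb⟩)
  have hll : ∀ a b p, a % 2 = 0 → ¬ b % 2 = 0 → p ∈ (g.vert a).E → p ∈ (g.vert b).E →
      ¬ τ a → τ b → p ∈ J := by
    intro a b p ha hb hpa hpb h1 h2
    simp only [τ, if_pos ha, if_neg hb] at h1 h2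
    have : p ∈ (g.side 0).closure JM ∪ (g.side 1)✶.closure JN := by rw [hcl]; trivial
    rcases this with h | h
    · exact hJM (((kM a ha).2.resolve_left h1) ⟨h, hpa⟩)
    · exact hJN (((kN b hb).2.resolve_left h2) ⟨h, hpb⟩)
  refine g.no_orient τ X ?_ ?_ ?_ ?_ ?_ ?_
  · intro v hv
    by_cases h : v % 2 = 0
    · simp only [τ, X, if_pos h] at hv ⊢; exact hv.1
    · simp only [X, if_neg h]
      exact Coindep.compl_spanning (kN v h).1
  · intro v hv
    by_cases h : v % 2 = 0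
    · simp only [X, if_pos h]; exact (kM v h).1
    · simp only [τ, X, if_neg h, not_not] at hv ⊢
      have := hv.1.compl_coindep
      rwa [dual_coindep_iff, dual_ground] at this
  · intro v n _ _
    by_cases h : v % 2 = 0
    · rw [hXe v _ h (mem_left g v n), hXo (v + 1) _ (by omega) (mem_right g v n)]; tauto
    · rw [hXo v _ h (mem_left g v n), hXe (v + 1) _ (by omega) (mem_right g v n)]; tauto
  · intro v n _ _
    by_cases h : v % 2 = 0
    · rw [hXe v _ h (mem_left g v n), hXo (v + 1) _ (by omega) (mem_right g v n)]; tauto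
    · rw [hXo v _ h (mem_left g v n), hXe (v + 1) _ (by omega) (mem_right g v n)]; tauto
  · intro v n hv hv'
    by_cases h : v % 2 = 0
    · rw [hXe v _ h (mem_left g v n), hXo (v + 1) _ (by omega) (mem_right g v n)]
      have := htt v (v + 1) _ h (by omega) (mem_left g v n) (mem_right g v n) hv hv'
      tauto
    · rw [hXo v _ h (mem_left g v n), hXe (v + 1) _ (by omega) (mem_right g v n)]
      have := hll (v + 1) v _ (by omega) h (mem_right g v n) (mem_left g v n) hv' hv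
      tauto
  · intro v n hv hv'
    by_cases h : v % 2 = 0
    · rw [hXe v _ h (mem_left g v n), hXo (v + 1) _ (by omega) (mem_right g v n)]
      have := hll v (v + 1) _ h (by omega) (mem_left g v n) (mem_right g v n) hv hv'
      tauto
    · rw [hXo v _ h (mem_left g v n), hXe (v + 1) _ (by omega) (mem_right g v n)]
      have := htt (v + 1) v _ (by omega) h (mem_right g v n) (mem_left g v n) hv' hv
      tauto

end Vale.Agent.P068
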