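import Vale.Agent.P068.Local

namespace Vale.Agent.P068

open Set Matroid

variable {α : Type*}

/-- `B` is a finite balanced modification of `R` -/
def Near (B R : Set α) : Prop := (B \ R).Finite ∧ (B \ R).encard = (R \ B).encard

/-- A family of representatives of bases of a uniform matroid -/
structure Reps (𝓡 : Set (Set α)) : Prop where
  inc : ∀ R ∈ 𝓡, ∀ R' ∈ 𝓡, R ≠ R' → (R \ R').Infinite
  task : ∀ I X, I ⊆ X → (X \ I).Infinite →
    ∃ R ∈ 𝓡, (R \ I).Finite ∨ (X \ R).Finite ∨ (I ⊆ R ∧ R ⊆ X)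
  ne : 𝓡.Nonempty

/-- the bases -/
def IsB (𝓡 : Set (Set α)) (B : Set α) : Prop := ∃ R ∈ 𝓡, Near B R

lemma Near.refl (R : Set α) : Near R R := by simp [Near]

lemma Near.fin' {B R : Set α} (h : Near B R) : (R \ B).Finite := by
  rw [← encard_lt_top_iff, ← h.2, encard_lt_top_iff]; exact h.1

lemma exists_near_superset {X R : Set α} (h1 : (X \ R).Finite)
    (h2 : (X \ R).encard ≤ (R \ X).encard) : ∃ B, Near B R ∧ X ⊆ B := by
  obtain ⟨F, hF, hFc⟩ := exists_subset_encard_eq h2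
  have e1 : ((R \ F) ∪ X) \ R = X \ R := by
    ext x; simp only [mem_sdiff, mem_union]; tauto
  have e2 : R \ ((R \ F) ∪ X) = F := by
    ext x; simp only [mem_sdiff, mem_union]
    have := @hF x
    simp only [mem_sdiff] at this
    tauto
  exact ⟨(R \ F) ∪ X, ⟨by rwa [e1], by rw [e1, e2, hFc]⟩, subset_union_right⟩

lemma exists_near_subset {X R : Set α} (h1 : (R \ X).Finite)
    (h2 : (R \ X).encard ≤ (X \ R).encard) : ∃ B, Near B R ∧ B ⊆ X := by
  obtain ⟨F, hF, hFc⟩ := exists_subset_encard_eq h2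
  have e1 : ((R ∩ X) ∪ F) \ R = F := by
    ext x; simp only [mem_sdiff, mem_union, mem_inter_iff]
    have := @hF x
    simp only [mem_sdiff] at this
    tauto
  have e2 : R \ ((R ∩ X) ∪ F) = R \ X := by
    ext x; simp only [mem_sdiff, mem_union, mem_inter_iff]
    have := @hF x
    simp only [mem_sdiff] at this
    tauto
  refine ⟨(R ∩ X) ∪ F, ⟨?_, by rw [e1, e2, hFc]⟩,
    union_subset inter_subset_right (hF.trans sdiff_subset)⟩
  rw [e1, ← encard_lt_top_iff, hFc, encard_lt_top_iff]; exact h1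

lemma Near.eq_of_subset {B B' R : Set α} (h : Near B R) (h' : Near B' R) (hs : B ⊆ B') :
    B = B' := by
  have s1 : B \ R ⊆ B' \ R := sdiff_subset_sdiff_left hs
  have s2 : R \ B' ⊆ R \ B := sdiff_subset_sdiff_right hs
  have l1 := encard_le_encard s1
  have l2 := encard_le_encard s2
  have e1 : B \ R = B' \ R := h.1.eq_of_subset_of_encard_le s1 (by rw [h.2, h'.2]; exact l2)
  have e2 : R \ B' = R \ B := h'.fin'.eq_of_subset_of_encard_le s2 (by rw [← h.2, ← h'.2]; exact l1)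
  refine hs.antisymm fun x hx => ?_
  by_cases hxR : x ∈ R
  · by_contra hc
    have : x ∈ R \ B := ⟨hxR, hc⟩
    rw [← e2] at this
    exact this.2 hx
  · have : x ∈ B' \ R := ⟨hx, hxR⟩
    rw [← e1] at this
    exact this.1

variable {𝓡 : Set (Set α)}

lemma Reps.eq_of_finite (h : Reps 𝓡) {R R' : Set α} (hR : R ∈ 𝓡) (hR' : R' ∈ 𝓡)
    (hf : (R \ R').Finite) : R = R' := by
  by_contra hc
  exact h.inc R hR R' hR' hc hf

lemma Reps.antichain (h : Reps 𝓡) {B B' : Set α} (hB : IsB 𝓡 B) (hB' : IsB 𝓡 B') (hs : B ⊆ B') :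
    B = B' := by
  obtain ⟨R, hR, hn⟩ := hB
  obtain ⟨R', hR', hn'⟩ := hB'
  have : R = R' := by
    refine h.eq_of_finite hR hR' ((hn.fin'.union hn'.1).subset fun x hx => ?_)
    by_cases hxB : x ∈ B
    · exact Or.inr ⟨hs hxB, hx.2⟩
    · exact Or.inl ⟨hx.1, hxB⟩
  subst this
  exact hn.eq_of_subset hn' hs

lemma Near.exchange {B R : Set α} (h : Near B R) {a b : α} (ha : a ∈ B) (hb : b ∉ B) :
    Near (insert b (B \ {a})) R := by
  have hab : a ≠ b := fun e => hb (e ▸ ha)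
  have hf := h.1
  have hf' := h.fin'
  refine ⟨(hf.insert b).subset fun x hx => ?_, ?_⟩
  · rcases hx with ⟨rfl | hx, hx'⟩
    · exact Or.inl rfl
    · exact Or.inr ⟨hx.1, hx'⟩
  have h2 := h.2
  by_cases haR : a ∈ R <;> by_cases hbR : b ∈ R
  · have e1 : insert b (B \ {a}) \ R = B \ R := by
      ext x; simp only [mem_sdiff, mem_insert_iff, mem_singleton_iff]; grind
    have e2 : R \ insert b (B \ {a}) = insert a ((R \ B) \ {b}) := by
      ext x; simp only [mem_sdiff, mem_insert_iff, mem_singleton_iff]; grind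
    rw [e1, e2, encard_exchange (s := R \ B) (by simp [ha]) ⟨hbR, hb⟩, h2]
  · have e1 : insert b (B \ {a}) \ R = insert b (B \ R) := by
      ext x; simp only [mem_sdiff, mem_insert_iff, mem_singleton_iff]; grind
    have e2 : R \ insert b (B \ {a}) = insert a (R \ B) := by
      ext x; simp only [mem_sdiff, mem_insert_iff, mem_singleton_iff]; grind
    rw [e1, e2, encard_insert_of_notMem (by simp [hb]), encard_insert_of_notMem (by simp [ha]), h2]
  · have e1 : insert b (B \ {a}) \ R = (B \ R) \ {a} := by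
      ext x; simp only [mem_sdiff, mem_insert_iff, mem_singleton_iff]; grind
    have e2 : R \ insert b (B \ {a}) = (R \ B) \ {b} := by
      ext x; simp only [mem_sdiff, mem_insert_iff, mem_singleton_iff]; grind
    rw [e1, e2, encard_sdiff_singleton_of_mem (s := B \ R) ⟨ha, haR⟩,
      encard_sdiff_singleton_of_mem (s := R \ B) ⟨hbR, hb⟩, h2]
  · have e1 : insert b (B \ {a}) \ R = insert b ((B \ R) \ {a}) := by
      ext x; simp only [mem_sdiff, mem_insert_iff, mem_singleton_iff]; grind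
    have e2 : R \ insert b (B \ {a}) = R \ B := by
      ext x; simp only [mem_sdiff, mem_insert_iff, mem_singleton_iff]; grind
    rw [e1, e2, encard_exchange (s := B \ R) (by simp [hb]) ⟨ha, haR⟩, h2]

lemma Reps.u3 (h : Reps 𝓡) {I X : Set α} (hIX : I ⊆ X) (hinf : (X \ I).Infinite) :
    ∃ B, IsB 𝓡 B ∧ (B ⊆ I ∨ X ⊆ B ∨ (I ⊆ B ∧ B ⊆ X)) := by
  obtain ⟨R, hR, h1 | h1 | h1⟩ := h.task I X hIX hinf
  · rcases le_or_gt (R \ I).encard (I \ R).encard with h2 | h2
    · obtain ⟨B, hB, hs⟩ := exists_near_subset h1 h2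
      exact ⟨B, ⟨R, hR, hB⟩, Or.inl hs⟩
    · obtain ⟨k, hk⟩ := exists_add_of_le h2.le
      have hinf' : ((X \ I) \ R).Infinite :=
        (hinf.sdiff h1).mono fun x hx => ⟨hx.1, fun hr => hx.2 ⟨hr, hx.1.2⟩⟩
      obtain ⟨F, hF, hFc⟩ := exists_subset_encard_eq (k := k) (s := (X \ I) \ R)
        (by rw [hinf'.encard_eq]; exact le_top)
      have e1 : (I ∪ F) \ R = (I \ R) ∪ F := by
        ext x; have := @hF x; simp only [mem_sdiff, mem_union] at this ⊢; tauto
      have e2 : R \ (I ∪ F) = R \ I := by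
        ext x; have := @hF x; simp only [mem_sdiff, mem_union] at this ⊢; tauto
      have e3 : ((I ∪ F) \ R).encard = (R \ (I ∪ F)).encard := by
        rw [e1, e2, encard_union_eq, hFc, hk]
        exact disjoint_left.2 fun x hx hx' => (hF hx').1.2 hx.1
      refine ⟨I ∪ F, ⟨R, hR, ?_, e3⟩, Or.inr (Or.inr ⟨subset_union_left,
        union_subset hIX fun x hx => (hF hx).1.1⟩)⟩
      rw [← encard_lt_top_iff, e3, e2, encard_lt_top_iff]; exact h1
  · rcases le_or_gt (X \ R).encard (R \ X).encard with h2 | h2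
    · obtain ⟨B, hB, hs⟩ := exists_near_superset h1 h2
      exact ⟨B, ⟨R, hR, hB⟩, Or.inr (Or.inl hs)⟩
    · obtain ⟨k, hk⟩ := exists_add_of_le h2.le
      have hinf' : ((X \ I) ∩ R).Infinite :=
        (hinf.sdiff h1).mono fun x hx => ⟨hx.1, by_contra fun hr => hx.2 ⟨hx.1.1, hr⟩⟩
      obtain ⟨F, hF, hFc⟩ := exists_subset_encard_eq (k := k) (s := (X \ I) ∩ R)
        (by rw [hinf'.encard_eq]; exact le_top)
      have e1 : (X \ F) \ R = X \ R := by
        ext x; have := @hF x; simp only [mem_sdiff, mem_inter_iff] at this ⊢; tauto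
      have e2 : R \ (X \ F) = (R \ X) ∪ F := by
        ext x; have := @hF x; simp only [mem_sdiff, mem_union, mem_inter_iff] at this ⊢; tauto
      refine ⟨X \ F, ⟨R, hR, by rwa [e1], ?_⟩, Or.inr (Or.inr ⟨fun x hx =>
        ⟨hIX hx, fun hx' => (hF hx').1.2 hx⟩, sdiff_subset⟩)⟩
      rw [e1, e2, encard_union_eq, hFc, hk]
      exact disjoint_left.2 fun x hx hx' => hx.2 (hF hx').1.1
  · exact ⟨R, ⟨R, hR, Near.refl R⟩, Or.inr (Or.inr h1)⟩

/-- the uniform matroid defined by a family of representatives -/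
def Reps.matroid (h : Reps 𝓡) : Matroid α :=
  Matroid.ofBase univ (IsB 𝓡)
    (by obtain ⟨R, hR⟩ := h.ne; exact ⟨R, R, hR, Near.refl R⟩)
    (by
      intro B B' hB hB' a ha
      have : (B' \ B).Nonempty := by
        rw [sdiff_nonempty]
        intro hs
        exact ha.2 (h.antichain hB' hB hs ▸ ha.1)
      obtain ⟨b, hb⟩ := this
      obtain ⟨R, hR, hn⟩ := hB
      exact ⟨b, hb, R, hR, hn.exchange ha.1 hb.2⟩)
    (by
      intro X _ I hI hIX
      by_cases hinf : (X \ I).Infinite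
      · obtain ⟨B, hB, h1 | h1 | h1⟩ := h.u3 hIX hinf
        · refine ⟨I, subset_rfl, ⟨hI, hIX⟩, ?_⟩
          rintro J ⟨⟨B', hB', hJ⟩, -⟩ hIJ
          have := h.antichain hB hB' (h1.trans (hIJ.trans hJ))
          exact hJ.trans (this ▸ h1)
        · exact ⟨X, hIX, ⟨⟨B, hB, h1⟩, subset_rfl⟩, fun J hJ _ => hJ.2⟩
        · refine ⟨B, h1.1, ⟨⟨B, hB, subset_rfl⟩, h1.2⟩, ?_⟩
          rintro J ⟨⟨B', hB', hJ⟩, -⟩ hIJ
          have := h.antichain hB hB' (hIJ.trans hJ)
          exact this ▸ hJ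
      · have hfin : (X \ I).Finite := not_infinite.1 hinf
        have hf : {J | ((∃ B, IsB 𝓡 B ∧ J ⊆ B) ∧ J ⊆ X) ∧ I ⊆ J}.Finite := by
          refine (hfin.powerset.image (fun T => I ∪ T)).subset fun J hJ => ?_
          exact ⟨J \ I, sdiff_subset_sdiff_left hJ.1.2, by simpa using hJ.2⟩
        obtain ⟨J, hJ⟩ := hf.exists_maximal ⟨I, ⟨hI, hIX⟩, subset_rfl⟩
        exact ⟨J, hJ.1.2, hJ.1.1, fun K hK hJK => hJ.2 ⟨hK, hJ.1.2.trans hJK⟩ hJK⟩)
    (fun _ _ => subset_univ _)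

lemma Reps.ground (h : Reps 𝓡) : h.matroid.E = univ := rfl

lemma Reps.isBase (h : Reps 𝓡) {B : Set α} : h.matroid.IsBase B ↔ IsB 𝓡 B := Iff.rfl

lemma Reps.unif (h : Reps 𝓡) : Unif h.matroid := by
  intro X _
  have sp : ∀ B, IsB 𝓡 B → B ⊆ X → h.matroid.Spanning X := fun B hB hs =>
    (h.isBase.2 hB).spanning_of_superset hs (subset_univ _)
  have ind : ∀ B, IsB 𝓡 B → X ⊆ B → h.matroid.Indep X := fun B hB hs =>
    (h.isBase.2 hB).indep.subset hs
  by_cases hX : X.Infinite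
  · obtain ⟨B, hB, h1 | h1 | h1⟩ := h.u3 (empty_subset X) (by simpa using hX)
    · exact Or.inr (sp B hB (h1.trans (empty_subset _)))
    · exact Or.inl (ind B hB h1)
    · exact Or.inr (sp B hB h1.2)
  · have hX := not_infinite.1 hX
    obtain ⟨R, hR⟩ := h.ne
    rcases le_or_gt (X \ R).encard (R \ X).encard with h2 | h2
    · obtain ⟨B, hB, hs⟩ := exists_near_superset hX.sdiff h2
      exact Or.inl (ind B ⟨R, hR, hB⟩ hs)
    · have : (R \ X).Finite := by
        rw [← encard_lt_top_iff]; exact h2.trans_le le_top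
      obtain ⟨B, hB, hs⟩ := exists_near_subset this h2.le
      exact Or.inr (sp B ⟨R, hR, hB⟩ hs)

end Vale.Agent.P068
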