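import Vale.Agent.P068.Split
import Vale.Agent.P068.Unif
import Vale.Agent.P068.Ray

namespace Vale.Agent.P068

open Set Filter Sum

/-- strongly incomparable or equal -/
def Inc (R R' : Set (ℕ ⊕ ℕ)) : Prop := R = R' ∨ ((R \ R').Infinite ∧ (R' \ R).Infinite)

lemma Inc.symm {R R' : Set (ℕ ⊕ ℕ)} (h : Inc R R') : Inc R' R :=
  h.imp Eq.symm And.symm

/-- the first base -/
def B0 : Set (ℕ ⊕ ℕ) := pr {0} univ

section
variable {W : Type} [LinearOrder W] (U : W → Ultrafilter ℕ)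

/-- the sets allowed to be independent -/
def Neutral (X : Set (ℕ ⊕ ℕ)) : Prop :=
  ∀ ζ, inl ⁻¹' X ∈ U ζ → ∃ ξ < ζ, (inr ⁻¹' X)ᶜ ∈ U ξ

variable {U}

lemma mem_of_sdiff_finite {V : Ultrafilter ℕ} (hV : ∀ B : Set ℕ, B.Finite → B ∉ V) {A B : Set ℕ}
    (hA : A ∈ V) (h : (A \ B).Finite) : B ∈ V := by
  have : B ∪ (A \ B) ∈ V := mem_of_superset hA fun x hx => by
    by_cases hb : x ∈ B
    · exact Or.inl hb
    · exact Or.inr ⟨hx, hb⟩
  exact (Ultrafilter.union_mem_iff.1 this).resolve_right (hV _ h)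

lemma Neutral.of_finite (hU : ∀ ζ (B : Set ℕ), B.Finite → B ∉ U ζ) {X R : Set (ℕ ⊕ ℕ)}
    (hR : Neutral U R) (h : (X \ R).Finite) : Neutral U X := by
  intro ζ hζ
  obtain ⟨ξ, hξ, h2⟩ := hR ζ (mem_of_sdiff_finite (hU ζ) hζ
    (h.preimage (f := inl) inl_injective.injOn))
  refine ⟨ξ, hξ, mem_of_sdiff_finite (hU ξ) h2 ?_⟩
  refine (h.preimage (f := inr) inr_injective.injOn).subset fun x hx => ?_
  exact ⟨not_not.1 hx.2, hx.1⟩

lemma neutral_B0 (hU : ∀ ζ (B : Set ℕ), B.Finite → B ∉ U ζ) : Neutral U B0 :=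
  fun ζ hζ => absurd hζ (hU ζ _ (finite_singleton 0))

lemma neutral_empty (hU : ∀ ζ (B : Set ℕ), B.Finite → B ∉ U ζ) : Neutral U ∅ :=
  fun ζ hζ => absurd hζ (hU ζ _ finite_empty)

lemma step_neutral (hW : ∀ w : W, (Iio w).Countable)
    (hU : ∀ ζ (B : Set ℕ), B.Finite → B ∉ U ζ) (hcov : ∀ A : Set ℕ, A.Infinite → ∃ ζ, A ∈ U ζ)
    {𝓡 : Set (Set (ℕ ⊕ ℕ))} (hc : 𝓡.Countable) (h0 : B0 ∈ 𝓡) {I X : Set (ℕ ⊕ ℕ)}
    (hI : Neutral U I) (hIX : I ⊆ X) (hY : (X \ I).Infinite)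
    (hR : ∀ R ∈ 𝓡, (R \ I).Infinite ∧ (X \ R).Infinite) :
    ∃ R', I ⊆ R' ∧ R' ⊆ X ∧ Neutral U R' ∧ ∀ R ∈ 𝓡, Inc R R' := by
  have hdn : (inr ⁻¹' I)ᶜ.Infinite := by
    intro hf
    apply (hR B0 h0).1
    refine ((hf.image inr).insert (inl 0)).subset ?_
    rintro (n | n) ⟨h1, h2⟩
    · left; simpa [B0] using h1
    · right; exact ⟨n, h2, rfl⟩
  obtain ⟨a, ha⟩ := hcov _ hdn
  have hIic : (Iic a).Countable := by
    rw [← Iio_insert]; exact (hW a).insert a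
  obtain ⟨Z, hZY, hZ, hZV⟩ := exists_split hY
    (𝒞 := {C | C.Infinite ∧ C ∈ ((fun R => R ∩ (X \ I)) '' 𝓡 ∪ (fun R => (X \ I) \ R) '' 𝓡)})
    (((hc.image _).union (hc.image _)).mono fun C hC => hC.2)
    (by
      rintro C ⟨h1, ⟨R, -, rfl⟩ | ⟨R, -, rfl⟩⟩
      · exact ⟨h1, inter_subset_right⟩
      · exact ⟨h1, sdiff_subset⟩)
    (𝒱 := (fun ζ => (U ζ).map inl) '' Iic a ∪ (fun ζ => (U ζ).map inr) '' Iic a)
    ((hIic.image _).union (hIic.image _))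
    (by
      rintro V (⟨ζ, -, rfl⟩ | ⟨ζ, -, rfl⟩) A hA h
      · exact hU ζ _ (hA.preimage inl_injective.injOn) (Ultrafilter.mem_map.1 h)
      · exact hU ζ _ (hA.preimage inr_injective.injOn) (Ultrafilter.mem_map.1 h))
  have hZl : ∀ ζ ≤ a, inl ⁻¹' Z ∉ U ζ := fun ζ h h' =>
    hZV _ (Or.inl ⟨ζ, h, rfl⟩) (Ultrafilter.mem_map.2 h')
  have hZr : ∀ ζ ≤ a, (inr ⁻¹' I)ᶜ ∈ U ζ → (inr ⁻¹' (I ∪ Z))ᶜ ∈ U ζ := fun ζ h h' => by
    have : inr ⁻¹' Z ∉ U ζ := fun h' => hZV _ (Or.inr ⟨ζ, h, rfl⟩) (Ultrafilter.mem_map.2 h')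
    rw [preimage_union, compl_union]
    exact inter_mem h' (Ultrafilter.compl_mem_iff_notMem.2 this)
  refine ⟨I ∪ Z, subset_union_left, union_subset hIX (hZY.trans sdiff_subset), ?_, ?_⟩
  · intro ζ hζ
    rcases lt_or_ge a ζ with h | h
    · exact ⟨a, h, hZr a le_rfl ha⟩
    · rw [preimage_union] at hζ
      obtain ⟨ξ, h1, h2⟩ := hI ζ ((Ultrafilter.union_mem_iff.1 hζ).resolve_right (hZl ζ h))
      exact ⟨ξ, h1, hZr ξ (h1.le.trans h) h2⟩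
  · intro R hR'
    right
    obtain ⟨h1, h2⟩ := hR R hR'
    constructor
    · by_cases h3 : (R ∩ (X \ I)).Infinite
      · refine ((hZ _ ⟨h3, Or.inl ⟨R, hR', rfl⟩⟩).2).mono ?_
        rintro x ⟨⟨hx1, hx2⟩, hx3⟩
        exact ⟨hx1, fun h => h.elim hx2.2 hx3⟩
      · refine (h1.sdiff (not_infinite.1 h3)).mono ?_
        rintro x ⟨⟨hx1, hx2⟩, hx3⟩
        exact ⟨hx1, fun h => h.elim hx2 fun hz => hx3 ⟨hx1, hZY hz⟩⟩
    · by_cases h3 : ((X \ I) \ R).Infinite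
      · refine ((hZ _ ⟨h3, Or.inr ⟨R, hR', rfl⟩⟩).1).mono ?_
        rintro x ⟨⟨-, hx2⟩, hx3⟩
        exact ⟨Or.inr hx3, hx2⟩
      · refine (h2.sdiff (not_infinite.1 h3)).mono ?_
        rintro x ⟨⟨hx1, hx2⟩, hx3⟩
        exact ⟨Or.inl (by_contra fun h => hx3 ⟨⟨hx1, h⟩, hx2⟩), hx2⟩

/-- invariant of the recursion -/
def Good (U : W → Ultrafilter ℕ) (𝓡 : Set (Set (ℕ ⊕ ℕ))) : Prop :=
  𝓡.Countable ∧ B0 ∈ 𝓡 ∧ (∀ R ∈ 𝓡, Neutral U R) ∧ ∀ R ∈ 𝓡, Inc R B0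

lemma step_all (hW : ∀ w : W, (Iio w).Countable)
    (hU : ∀ ζ (B : Set ℕ), B.Finite → B ∉ U ζ) (hcov : ∀ A : Set ℕ, A.Infinite → ∃ ζ, A ∈ U ζ)
    (𝓡 : Set (Set (ℕ ⊕ ℕ))) (p : Set (ℕ ⊕ ℕ) × Set (ℕ ⊕ ℕ)) :
    ∃ R', Good U 𝓡 → Neutral U R' ∧ (∀ R ∈ 𝓡, Inc R R') ∧
      (p.1 ⊆ p.2 → (p.2 \ p.1).Infinite → ∃ R ∈ insert R' 𝓡,
        (R \ p.1).Finite ∨ (p.2 \ R).Finite ∨ (p.1 ⊆ R ∧ R ⊆ p.2)) := by
  obtain ⟨I, X⟩ := p
  by_cases hg : Good U 𝓡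
  swap
  · exact ⟨B0, fun h => absurd h hg⟩
  obtain ⟨hc, h0, hn, hi⟩ := hg
  by_cases hs : I ⊆ X → (X \ I).Infinite → ∃ R ∈ 𝓡, (R \ I).Finite ∨ (X \ R).Finite
  · refine ⟨B0, fun _ => ⟨neutral_B0 hU, hi, fun h1 h2 => ?_⟩⟩
    obtain ⟨R, hR, h⟩ := hs h1 h2
    exact ⟨R, Or.inr hR, h.imp_right Or.inl⟩
  push Not at hs
  obtain ⟨hIX, hY, hR⟩ := hs
  by_cases hI : Neutral U I
  · obtain ⟨R', h1, h2, h3, h4⟩ := step_neutral hW hU hcov hc h0 hI hIX hY hR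
    exact ⟨R', fun _ => ⟨h3, h4, fun _ _ => ⟨R', Or.inl rfl, Or.inr (Or.inr ⟨h1, h2⟩)⟩⟩⟩
  · have hIR : ∀ R ∈ 𝓡, (I \ R).Infinite := fun R hR' hf => hI ((hn R hR').of_finite hU hf)
    obtain ⟨R', -, h2, h3, h4⟩ := step_neutral hW hU hcov hc h0 (neutral_empty hU) (empty_subset I)
      (((hIR B0 h0).mono sdiff_subset).mono (by simp))
      (fun R hR' => ⟨((hR R hR').1.mono sdiff_subset).mono (by simp), hIR R hR'⟩)
    refine ⟨R', fun _ => ⟨h3, h4, fun _ _ => ⟨R', Or.inl rfl, Or.inl ?_⟩⟩⟩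
    rw [sdiff_eq_empty.2 h2]; exact finite_empty

lemma exists_reps [WellFoundedLT W] (hW : ∀ w : W, (Iio w).Countable)
    (hU : ∀ ζ (B : Set ℕ), B.Finite → B ∉ U ζ) (hcov : ∀ A : Set ℕ, A.Infinite → ∃ ζ, A ∈ U ζ)
    (e : W → Set (ℕ ⊕ ℕ) × Set (ℕ ⊕ ℕ)) (he : Function.Surjective e) :
    ∃ 𝓡, Reps 𝓡 ∧ B0 ∈ 𝓡 ∧ ∀ R ∈ 𝓡, Neutral U R := by
  choose step hstep using step_all hW hU hcov
  let f : W → Set (ℕ ⊕ ℕ) := (wellFounded_lt (α := W)).fix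
    fun w g => step (insert B0 (range fun v : Iio w => g v.1 v.2)) (e w)
  let fam : W → Set (Set (ℕ ⊕ ℕ)) := fun w => insert B0 (range fun v : Iio w => f v.1)
  have hf : ∀ w, f w = step (fam w) (e w) := fun w => WellFounded.fix_eq _ _ _
  have key : ∀ w, Good U (fam w) := by
    intro w
    induction w using WellFoundedLT.induction with
    | _ w ih =>
      have := (hW w).to_subtype
      refine ⟨(countable_range _).insert _, mem_insert _ _, ?_, ?_⟩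
      · rintro R (rfl | ⟨v, rfl⟩)
        · exact neutral_B0 hU
        · simp only [hf]; exact (hstep _ _ (ih v.1 v.2)).1
      · rintro R (rfl | ⟨v, rfl⟩)
        · exact Or.inl rfl
        · simp only [hf]
          exact ((hstep _ (e v.1) (ih v.1 v.2)).2.1 B0 (mem_insert _ _)).symm
  have hsub : ∀ w, insert (f w) (fam w) ⊆ insert B0 (range f) := by
    rintro w R (rfl | rfl | ⟨v, rfl⟩)
    · exact Or.inr ⟨w, rfl⟩
    · exact Or.inl rfl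
    · exact Or.inr ⟨v, rfl⟩
  have hinc : ∀ w, ∀ R ∈ fam w, Inc R (f w) := fun w R hR => by
    rw [hf]; exact (hstep _ _ (key w)).2.1 R hR
  have hall : ∀ R ∈ insert B0 (range f), ∀ R' ∈ insert B0 (range f), Inc R R' := by
    rintro R (rfl | ⟨v, rfl⟩) R' (rfl | ⟨w, rfl⟩)
    · exact Or.inl rfl
    · exact hinc w _ (mem_insert _ _)
    · exact (hinc v _ (mem_insert _ _)).symm
    · rcases lt_trichotomy v w with h | rfl | h
      · exact hinc w _ (Or.inr ⟨⟨v, h⟩, rfl⟩)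
      · exact Or.inl rfl
      · exact (hinc v _ (Or.inr ⟨⟨w, h⟩, rfl⟩)).symm
  refine ⟨insert B0 (range f), ⟨fun R hR R' hR' hne => ((hall R hR R' hR').resolve_left hne).1,
    fun I X hIX hY => ?_, insert_nonempty _ _⟩, mem_insert _ _, ?_⟩
  · obtain ⟨w, hw⟩ := he (I, X)
    have := (hstep _ (e w) (key w)).2.2
    rw [← hf, hw] at this
    obtain ⟨R, hR, h⟩ := this hIX hY
    exact ⟨R, hsub w hR, h⟩
  · rintro R (rfl | ⟨v, rfl⟩)
    · exact neutral_B0 hU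
    · rw [hf]; exact (hstep _ _ (key v)).1

end

theorem gadget_of_ch (hCH : Cardinal.continuum.{0} = Cardinal.aleph 1) : Nonempty Gadget := by
  let W : Type := (Cardinal.aleph 1).ord.ToType
  have hW : ∀ w : W, (Iio w).Countable := fun w => by
    rw [← Cardinal.le_aleph0_iff_set_countable, ← Cardinal.lt_aleph_one_iff]
    have h1 := Cardinal.mk_Iio_lt w (by simp [W])
    rwa [Cardinal.mk_ord_toType] at h1
  obtain ⟨e⟩ : Nonempty (W ≃ Set (ℕ ⊕ ℕ) × Set (ℕ ⊕ ℕ)) := by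
    rw [← Cardinal.eq]
    simp [W, ← hCH]
  have hex : ∀ w : W, ∃ V : Ultrafilter ℕ, ((inl ⁻¹' (e w).1).Infinite → inl ⁻¹' (e w).1 ∈ V) ∧
      ∀ B : Set ℕ, B.Finite → B ∉ V := by
    intro w
    by_cases h : (inl ⁻¹' (e w).1).Infinite
    · obtain ⟨V, h1, h2⟩ := exists_free_ultrafilter h
      exact ⟨V, fun _ => h1, h2⟩
    · obtain ⟨V, -, h2⟩ := exists_free_ultrafilter (infinite_univ (α := ℕ))
      exact ⟨V, fun h' => absurd h' h, h2⟩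
  choose U hU1 hU using hex
  have hcov : ∀ A : Set ℕ, A.Infinite → ∃ ζ, A ∈ U ζ := fun A hA =>
    ⟨e.symm (pr A ∅, ∅), by
      have := hU1 (e.symm (pr A ∅, ∅))
      rw [e.apply_symm_apply] at this
      exact this hA⟩
  obtain ⟨𝓡, hR, h0, hN⟩ := exists_reps hW hU hcov e e.surjective
  refine ⟨⟨hR.matroid, rfl, hR.unif, W, (· < ·), wellFounded_lt, ℕ, (· < ·), wellFounded_lt,
    fun ζ A => A ∈ U ζ, fun k A => A.encard ≤ k, fun a A B h1 h2 => mem_of_superset h1 h2,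
    fun a A B h1 h2 => (encard_le_encard h2).trans h1, fun a => hU a _ finite_empty,
    fun a h => ?_, fun A => ?_, ?_, ?_⟩⟩
  · exact infinite_univ (finite_of_encard_le_coe h)
  · by_cases h : A.Infinite
    · exact Or.inl (hcov A h)
    · exact Or.inr ⟨A.ncard, (not_infinite.1 h).cast_ncard_eq.ge⟩
  · intro u w k hs hk
    obtain ⟨B, ⟨R, hRR, hn⟩, hB⟩ := hs.exists_isBase_subset
    have hu : u.Finite := finite_of_encard_le_coe hk
    have hBf : (B \ B0).Finite := (hu.image inl).subset (by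
      rintro (n | n) ⟨h1, h2⟩
      · exact ⟨n, hB h1, rfl⟩
      · exact absurd (by simp [B0]) h2)
    have : R = B0 := hR.eq_of_finite hRR h0 ((hn.fin'.union hBf).subset fun x hx => by
      by_cases hx' : x ∈ B
      · exact Or.inr ⟨hx', hx.2⟩
      · exact Or.inl ⟨hx.1, hx'⟩)
    subst this
    have h1 : (inr '' wᶜ : Set (ℕ ⊕ ℕ)) ⊆ B0 \ B := by
      rintro _ ⟨n, hn', rfl⟩
      exact ⟨by simp [B0], fun h => hn' (hB h)⟩
    have h2 : B \ B0 ⊆ inl '' (u \ {0}) := by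
      rintro (n | n) ⟨h1, h2⟩
      · exact ⟨n, ⟨hB h1, by simpa [B0] using h2⟩, rfl⟩
      · exact absurd (by simp [B0]) h2
    have h3 : wᶜ.encard + 1 ≤ k := by
      by_cases h0' : 0 ∈ u
      · have a1 := encard_le_encard h1
        have a2 := encard_le_encard h2
        rw [inr_injective.encard_image] at a1
        rw [inl_injective.encard_image] at a2
        rw [← encard_sdiff_singleton_add_one h0'] at hk
        calc wᶜ.encard + 1 ≤ (u \ {0}).encard + 1 := by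
              exact add_le_add (a1.trans (hn.2 ▸ a2)) le_rfl
          _ ≤ k := hk
      · have h1' : insert (inl 0) (inr '' wᶜ : Set (ℕ ⊕ ℕ)) ⊆ B0 \ B :=
          insert_subset ⟨by simp [B0], fun h => h0' (hB h)⟩ h1
        have a1 := encard_le_encard h1'
        have a2 := encard_le_encard h2
        rw [encard_insert_of_notMem (by simp), inr_injective.encard_image] at a1
        rw [inl_injective.encard_image] at a2
        exact a1.trans ((hn.2 ▸ a2).trans ((encard_le_encard sdiff_subset).trans hk))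
    have hwf : wᶜ.Finite := finite_of_encard_le_coe (le_self_add.trans h3)
    refine ⟨wᶜ.ncard, ?_, hwf.cast_ncard_eq.ge⟩
    rw [← hwf.cast_ncard_eq] at h3
    exact_mod_cast h3
  · intro u w ζ hi hζ
    obtain ⟨B, ⟨R, hRR, hn⟩, hB⟩ := hi.exists_isBase_superset
    exact (hN R hRR).of_finite hU (hn.1.subset (sdiff_subset_sdiff_left hB)) ζ hζ

end Vale.Agent.P068
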