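import Vale.Agent.P068.Defs

namespace Vale.Agent.P068

open Set Matroid Function

variable {α ι : Type*}

/-- uniform matroid: every subset of the ground set is independent or spanning -/
def Unif (M : Matroid α) : Prop := ∀ X, X ⊆ M.E → M.Indep X ∨ M.Spanning X

lemma Unif.dual {M : Matroid α} (h : Unif M) : Unif M✶ := by
  intro X hX
  rw [dual_ground] at hX
  rcases h (M.E \ X) sdiff_subset with h1 | h1
  · right
    rw [spanning_iff_compl_coindep (by simpa using hX), dual_coindep_iff]
    simpa using h1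
  · left
    rw [← coindep_def, coindep_iff_compl_spanning hX]
    exact h1

lemma Unif.closure_subset {M : Matroid α} (h : Unif M) {X : Set α} (hX : X ⊆ M.E)
    (hs : ¬ M.Spanning X) : M.closure X ⊆ X := by
  intro e he
  by_contra heX
  have hI : M.Indep X := (h X hX).resolve_right hs
  have heE : e ∈ M.E := M.closure_subset_ground X he
  rcases h (insert e X) (insert_subset heE hX) with h1 | h1
  · exact ((hI.insert_indep_iff_of_notMem heX).1 h1).2 he
  · apply hs
    rw [spanning_iff_closure_eq hX, ← closure_insert_eq_of_mem_closure he]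
    exact h1.closure_eq

variable {φ : ι → Matroid α} {h : Pairwise (Disjoint on fun i ↦ (φ i).E)}

lemma closure_local (hE : (⋃ i, (φ i).E) = univ) {X : Set α} {i : ι} {e : α} (he : e ∈ (φ i).E)
    (hc : e ∈ (Matroid.disjointSigma φ h).closure X) : e ∈ (φ i).closure (X ∩ (φ i).E) := by
  set M := Matroid.disjointSigma φ h with hM
  have hME : M.E = univ := by rw [hM, disjointSigma_ground_eq, hE]
  obtain ⟨I, hI⟩ := M.exists_isBasis X (by rw [hME]; exact subset_univ _)
  have hI' := (disjointSigma_isBasis_iff.1 hI).1 i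
  rw [← hI'.closure_eq_closure]
  rw [← hI.closure_eq_closure] at hc
  by_cases heI : e ∈ I
  · exact (φ i).subset_closure _ inter_subset_right ⟨heI, he⟩
  by_contra hcon
  have h1 : (φ i).Indep (insert e (I ∩ (φ i).E)) :=
    (hI'.indep.insert_indep_iff_of_notMem (fun hh => heI hh.1)).2 ⟨he, hcon⟩
  have h2 : M.Indep (insert e I) := by
    rw [hM, disjointSigma_indep_iff]
    refine ⟨fun j => ?_, by rw [hE]; exact subset_univ _⟩
    by_cases hij : j = i
    · subst hij
      rwa [insert_inter_of_mem he]
    · have : e ∉ (φ j).E := fun hj => (disjoint_left.1 (h hij)) hj he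
      rw [insert_inter_of_notMem this]
      exact ((disjointSigma_isBasis_iff.1 hI).1 j).indep
  exact ((hI.indep.insert_indep_iff_of_notMem heI).1 h2).2 hc

lemma pc_local (hE : (⋃ i, (φ i).E) = univ) (hU : ∀ i, Unif (φ i)) {P C S I : Set α}
    (hPC : Disjoint P C) (hPC' : P ∪ C = univ) (hS : S ⊆ P) (hI : I ⊆ C)
    (hcl : ((Matroid.disjointSigma φ h).restrict P).closure S = P)
    (hind : (contractOnto (Matroid.disjointSigma φ h) C).Indep I) (i : ι) :
    ((φ i).Spanning (S ∩ (φ i).E) ∧ I ∩ (φ i).E = ∅) ∨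
      (P ∩ (φ i).E ⊆ S ∧ (φ i).Indep ((I ∪ P) ∩ (φ i).E)) := by
  set M := Matroid.disjointSigma φ h with hM
  have hME : M.E = univ := by rw [hM, disjointSigma_ground_eq, hE]
  have hP : P ⊆ M.closure S := by
    rw [restrict_closure_eq M hS (by rw [hME]; exact subset_univ _)] at hcl
    rw [← hcl]; exact inter_subset_left
  have hP' : P ∩ (φ i).E ⊆ (φ i).closure (S ∩ (φ i).E) := fun e he =>
    closure_local hE he.2 (hP he.1)
  have hCeq : C = M✶.E \ P := by
    rw [dual_ground, hME]
    ext x
    constructor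
    · intro hx; exact ⟨trivial, fun hp => disjoint_left.1 hPC hp hx⟩
    · intro hx
      have : x ∈ P ∪ C := by rw [hPC']; trivial
      exact this.resolve_left hx.2
  have hcon : contractOnto M C = M ／ P := by
    rw [contractOnto, hCeq]; rfl
  rw [hcon] at hind
  obtain ⟨J, hJ⟩ := M.exists_isBasis P (by rw [hME]; exact subset_univ _)
  have hIJ := (hJ.contract_indep_iff.1 hind).1
  have hJ' := (disjointSigma_isBasis_iff.1 hJ).1 i
  have hIJ' := (disjointSigma_indep_iff.1 hIJ).1 i
  by_cases hsp : (φ i).Spanning (P ∩ (φ i).E)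
  · left
    constructor
    · rw [spanning_iff_ground_subset_closure inter_subset_right]
      have h3 := (φ i).closure_subset_closure_of_subset_closure hP'
      rwa [hsp.closure_eq] at h3
    · have hB := hJ'.isBase_of_spanning hsp
      have := hB.eq_of_subset_indep hIJ' (inter_subset_inter_left _ subset_union_right)
      rw [eq_empty_iff_forall_notMem]
      intro x hx
      have hx2 : x ∈ J ∩ (φ i).E := by rw [this]; exact ⟨Or.inl hx.1, hx.2⟩
      exact disjoint_left.1 hPC (hJ.subset hx2.1) (hI hx.1)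
  · right
    have hns : ¬ (φ i).Spanning (S ∩ (φ i).E) := fun hh =>
      hsp (hh.superset (inter_subset_inter_left _ hS) inter_subset_right)
    constructor
    · exact fun e he => ((hU i).closure_subset inter_subset_right hns (hP' he)).1
    · have hPi : (φ i).Indep (P ∩ (φ i).E) := (hU i _ inter_subset_right).resolve_right hsp
      have := hJ'.eq_of_subset_indep hPi hJ'.subset subset_rfl
      rw [union_inter_distrib_right, ← this, ← union_inter_distrib_right]
      exact hIJ'

lemma dual_pairwise (h : Pairwise (Disjoint on fun i ↦ (φ i).E)) :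
    Pairwise (Disjoint on fun i ↦ ((φ i)✶).E) := h

lemma disjointSigma_dual :
    (Matroid.disjointSigma φ h)✶ = Matroid.disjointSigma (fun i => (φ i)✶) (dual_pairwise h) := by
  refine ext_isBase (by simp) (fun B hB => ?_)
  rw [dual_ground, disjointSigma_ground_eq] at hB
  rw [dual_isBase_iff (by rw [disjointSigma_ground_eq]; exact hB), disjointSigma_isBase_iff,
    disjointSigma_isBase_iff, disjointSigma_ground_eq]
  simp only [dual_ground, sdiff_subset, and_true]
  rw [and_iff_left hB]
  refine forall_congr' fun i => ?_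
  rw [dual_isBase_iff (by exact inter_subset_right)]
  have : ((⋃ i, (φ i).E) \ B) ∩ (φ i).E = (φ i).E \ (B ∩ (φ i).E) := by
    ext x
    simp only [mem_inter_iff, mem_sdiff, mem_iUnion]
    constructor
    · rintro ⟨⟨_, h2⟩, h3⟩; exact ⟨h3, fun hh => h2 hh.1⟩
    · rintro ⟨h1, h2⟩; exact ⟨⟨⟨i, h1⟩, fun hh => h2 ⟨hh, h1⟩⟩, h1⟩
  rw [this]

lemma int_local (hE : (⋃ i, (φ i).E) = univ) (hU : ∀ i, Unif (φ i)) {J K : Set α}
    (hJ : (Matroid.disjointSigma φ h).Indep J) (hK : K ⊆ J) (i : ι) :
    (φ i).Indep (J ∩ (φ i).E) ∧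
    (((φ i).Spanning (J ∩ (φ i).E) ∧ J ∩ (φ i).E ⊆ K) ∨
      (Matroid.disjointSigma φ h).closure K ∩ (φ i).E ⊆ K) := by
  have hJ' := (disjointSigma_indep_iff.1 hJ).1 i
  refine ⟨hJ', ?_⟩
  by_cases hsp : (φ i).Spanning (K ∩ (φ i).E)
  · left
    have := hJ'.eq_of_spanning_subset hsp (inter_subset_inter_left _ hK)
    rw [← this]
    exact ⟨hsp, inter_subset_left⟩
  · right
    intro e he
    exact ((hU i).closure_subset inter_subset_right hsp (closure_local hE he.2 he.1)).1

end Vale.Agent.P068
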