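import Mathlib

namespace Vale.Agent.P068

open Set Filter

variable {Ω : Type*}

lemma exists_inj_choice_nat (F : ℕ → Set Ω) (hF : ∀ n, (F n).Infinite) :
    ∃ y : ℕ → Ω, Function.Injective y ∧ ∀ n, y n ∈ F n := by
  classical
  choose c hc1 hc2 using fun (n : ℕ) (s : Finset Ω) => (hF n).exists_notMem_finset s
  let S : ℕ → Finset Ω := fun n => Nat.rec ∅ (fun k s => insert (c k s) s) n
  have hS : ∀ n, S (n + 1) = insert (c n (S n)) (S n) := fun n => rfl
  have hmono : Monotone S := monotone_nat_of_le_succ fun n => by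
    rw [hS]; exact Finset.subset_insert _ _
  have key : ∀ m n, m < n → c m (S m) ≠ c n (S n) := by
    intro m n hmn h
    apply hc2 n (S n)
    rw [← h]
    exact hmono hmn (by rw [Nat.succ_eq_add_one, hS]; exact Finset.mem_insert_self _ _)
  refine ⟨fun n => c n (S n), fun m n h => ?_, fun n => hc1 n _⟩
  rcases lt_trichotomy m n with h1 | h1 | h1
  · exact absurd h (key m n h1)
  · exact h1
  · exact absurd h.symm (key n m h1)

lemma exists_inj_choice {ι : Type*} [Countable ι] [Infinite ι] (F : ι → Set Ω)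
    (hF : ∀ i, (F i).Infinite) : ∃ y : ι → Ω, Function.Injective y ∧ ∀ i, y i ∈ F i := by
  obtain ⟨e⟩ := nonempty_equiv_of_countable (α := ι) (β := ℕ)
  obtain ⟨y, hy, hy'⟩ := exists_inj_choice_nat (fun n => F (e.symm n)) (fun n => hF _)
  exact ⟨y ∘ e, hy.comp e.injective, fun i => by simpa using hy' (e i)⟩

lemma not_countable_sets : ¬ (univ : Set (Set ℕ)).Countable := by
  intro h
  obtain ⟨f, hf⟩ := h.exists_eq_range univ_nonempty
  exact Function.cantor_surjective f (range_eq_univ.1 hf.symm)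

/-- splitting countably many infinite sets while avoiding countably many free ultrafilters -/
lemma exists_split {Y : Set Ω} (hY : Y.Infinite) {𝒞 : Set (Set Ω)} (h𝒞 : 𝒞.Countable)
    (hinf : ∀ C ∈ 𝒞, C.Infinite ∧ C ⊆ Y) {𝒱 : Set (Ultrafilter Ω)} (h𝒱 : 𝒱.Countable)
    (hfree : ∀ V ∈ 𝒱, ∀ A : Set Ω, A.Finite → A ∉ V) :
    ∃ Z ⊆ Y, (∀ C ∈ 𝒞, (C ∩ Z).Infinite ∧ (C \ Z).Infinite) ∧ ∀ V ∈ 𝒱, Z ∉ V := by
  classical
  obtain ⟨c, hc⟩ := (h𝒞.insert Y).exists_eq_range (insert_nonempty _ _)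
  have hc' : ∀ n, (c n).Infinite ∧ c n ⊆ Y := by
    intro n
    have : c n ∈ insert Y 𝒞 := hc ▸ mem_range_self n
    rcases this with h | h
    · rw [h]; exact ⟨hY, subset_rfl⟩
    · exact hinf _ h
  obtain ⟨y, hy, hy'⟩ := exists_inj_choice (ι := ℕ × Finset ℕ) (fun p => c p.1.unpair.1)
    (fun p => (hc' _).1)
  let node : Set ℕ → ℕ → ℕ × Finset ℕ := fun η n => (n, (Finset.range n).filter (· ∈ η))
  let Z : Set ℕ → Set Ω := fun η => range fun n => y (node η n)
  have hZY : ∀ η, Z η ⊆ Y := by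
    rintro η _ ⟨n, rfl⟩
    exact (hc' _).2 (hy' _)
  have hmeet : ∀ η k, (c k ∩ Z η).Infinite := by
    intro η k
    refine infinite_of_injective_forall_mem (f := fun m : ℕ => y (node η (Nat.pair k m))) ?_ ?_
    · intro a b hab
      have := congrArg Prod.fst (hy hab)
      simpa [node] using this
    · intro m
      refine ⟨?_, ⟨_, rfl⟩⟩
      simpa [node] using hy' (node η (Nat.pair k m))
  have had : ∀ η η', η ≠ η' → (Z η ∩ Z η').Finite := by
    intro η η' hne
    obtain ⟨k, hk⟩ : ∃ k, ¬ (k ∈ η ↔ k ∈ η') := by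
      by_contra hcon
      push Not at hcon
      exact hne (Set.ext hcon)
    refine ((finite_le_nat k).image fun n => y (node η n)).subset ?_
    rintro x ⟨⟨n, rfl⟩, ⟨m, hm⟩⟩
    refine ⟨n, ?_, rfl⟩
    have h1 := hy hm
    simp only [node, Prod.mk.injEq] at h1
    obtain ⟨rfl, h2⟩ := h1
    by_contra hlt
    simp only [mem_ofPred_eq, not_le] at hlt
    have := Finset.ext_iff.1 h2 k
    simp only [Finset.mem_filter, Finset.mem_range, hlt, true_and] at this
    exact hk this.symm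
  have hcount : (⋃ V ∈ 𝒱, {η | Z η ∈ V}).Countable := by
    refine h𝒱.biUnion fun V hV => Subsingleton.countable ?_
    intro η h1 η' h2
    by_contra hne
    exact hfree V hV _ (had η η' hne) (inter_mem h1 h2)
  obtain ⟨η, hη⟩ : ∃ η, η ∉ ⋃ V ∈ 𝒱, {η | Z η ∈ V} := by
    by_contra hcon
    push Not at hcon
    exact not_countable_sets (hcount.mono fun η _ => hcon η)
  refine ⟨Z η, hZY η, fun C hC => ?_, fun V hV hZ => hη (mem_biUnion hV hZ)⟩
  obtain ⟨k, rfl⟩ : C ∈ range c := hc ▸ mem_insert_of_mem _ hC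
  refine ⟨hmeet η k, ?_⟩
  have hne : η ≠ ηᶜ := fun h => by
    have : (0 : ℕ) ∈ η ↔ (0 : ℕ) ∈ ηᶜ := by rw [← h]
    simp at this
  refine ((hmeet ηᶜ k).sdiff (had η ηᶜ hne)).mono ?_
  rintro x ⟨⟨h1, h2⟩, h3⟩
  exact ⟨h1, fun h4 => h3 ⟨h4, h2⟩⟩

lemma exists_free_ultrafilter {A : Set Ω} (hA : A.Infinite) :
    ∃ U : Ultrafilter Ω, A ∈ U ∧ ∀ B : Set Ω, B.Finite → B ∉ U := by
  have : (cofinite ⊓ 𝓟 A).NeBot := by
    rw [← frequently_mem_iff_neBot, frequently_cofinite_iff_infinite]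
    simpa using hA
  obtain ⟨U, hU⟩ := Ultrafilter.exists_le (cofinite ⊓ 𝓟 A)
  refine ⟨U, hU (mem_inf_of_right (mem_principal_self A)), fun B hB hBU => ?_⟩
  have : Bᶜ ∈ U := hU (mem_inf_of_left hB.compl_mem_cofinite)
  exact Ultrafilter.compl_mem_iff_notMem.1 this hBU

end Vale.Agent.P068
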