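import Mathlib

namespace Vale.Agent.P068

open Set Filter

/-- a partition of a countable set into finite blocks of growing size -/
structure Blk (Ω : Type*) where
  blk : Ω → ℕ
  fin : ∀ j, {x | blk x = j}.Finite
  big : ∀ j, j * j ≤ {x | blk x = j}.ncard
  idx : Ω → ℕ
  inj : Function.Injective idx

namespace Blk

variable {Ω : Type*} (s : Blk Ω)

/-- number of points of `N` in block `j` -/
noncomputable def cnt (j : ℕ) (N : Set Ω) : ℕ := (N ∩ {x | s.blk x = j}).ncard

/-- size of block `j` -/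
noncomputable def size (j : ℕ) : ℕ := {x | s.blk x = j}.ncard

/-- block density tends to zero -/
def Null (N : Set Ω) : Prop := ∀ k : ℕ, ∀ᶠ j in atTop, k * s.cnt j N ≤ s.size j

/-- number of points of `N` among the first `b` points -/
noncomputable def ini (b : ℕ) (N : Set Ω) : ℕ := (N ∩ {x | s.idx x < b}).ncard

/-- rescaled supremum of the densities of `N` in the blocks from `b` on -/
noncomputable def top (b : ℕ) (N : Set Ω) : ℕ :=
  ⨆ j : ℕ, b * b * s.cnt (b + j) N / s.size (b + j)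

/-- the score of `N` at level `b` -/
noncomputable def phi (b : ℕ) (N : Set Ω) : ℕ := s.top b N + s.ini b N

variable {s}

lemma cnt_le_add {j : ℕ} {N A B : Set Ω} (h : N ⊆ A ∪ B) : s.cnt j N ≤ s.cnt j A + s.cnt j B := by
  refine le_trans (ncard_le_ncard ?_ ?_) (ncard_union_le _ _)
  · rintro x ⟨h1, h2⟩
    exact (h h1).imp (fun h => ⟨h, h2⟩) fun h => ⟨h, h2⟩
  · exact ((s.fin j).subset inter_subset_right).union ((s.fin j).subset inter_subset_right)

lemma cnt_mono {j : ℕ} {N A : Set Ω} (h : N ⊆ A) : s.cnt j N ≤ s.cnt j A :=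
  ncard_le_ncard (inter_subset_inter_left _ h) ((s.fin j).subset inter_subset_right)

lemma cnt_le_size (j : ℕ) (N : Set Ω) : s.cnt j N ≤ s.size j :=
  ncard_le_ncard inter_subset_right (s.fin j)

lemma cnt_le_ncard (j : ℕ) {N : Set Ω} (h : N.Finite) : s.cnt j N ≤ N.ncard :=
  ncard_le_ncard inter_subset_left h

lemma le_size {b j : ℕ} (h : b ≤ j) : b * b ≤ s.size j :=
  (Nat.mul_le_mul h h).trans (s.big j)

lemma self_le_size (j : ℕ) : j ≤ s.size j := (Nat.le_mul_self j).trans (s.big j)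

lemma Null.of_subset_union {N A B : Set Ω} (hA : s.Null A) (hB : s.Null B) (h : N ⊆ A ∪ B) :
    s.Null N := by
  intro k
  filter_upwards [hA (2 * k), hB (2 * k)] with j h1 h2
  have h3 := Nat.mul_le_mul_left k (cnt_le_add (s := s) (j := j) h)
  nlinarith

lemma Null.mono {N A : Set Ω} (hA : s.Null A) (h : N ⊆ A) : s.Null N :=
  hA.of_subset_union hA (h.trans subset_union_left)

lemma Null.union {A B : Set Ω} (hA : s.Null A) (hB : s.Null B) : s.Null (A ∪ B) :=
  hA.of_subset_union hB subset_rfl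

lemma null_of_finite {N : Set Ω} (h : N.Finite) : s.Null N := by
  intro k
  filter_upwards [eventually_ge_atTop (k * N.ncard)] with j hj
  exact (Nat.mul_le_mul_left k (cnt_le_ncard j h)).trans (hj.trans (self_le_size j))

lemma null_empty : s.Null ∅ := null_of_finite finite_empty

lemma null_sdiff_of_subset {A B : Set Ω} (h : A ⊆ B) : s.Null (A \ B) := by
  rw [sdiff_eq_empty.2 h]; exact null_empty

lemma Null.trans {A B C : Set Ω} (h1 : s.Null (A \ B)) (h2 : s.Null (B \ C)) : s.Null (A \ C) :=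
  h1.of_subset_union h2 fun x hx => by
    by_cases hb : x ∈ B
    · exact Or.inr ⟨hb, hx.2⟩
    · exact Or.inl ⟨hx.1, hb⟩

lemma ini_fin (b : ℕ) : {x | s.idx x < b}.Finite :=
  (finite_lt_nat b).preimage s.inj.injOn

lemma ini_le (b : ℕ) (N : Set Ω) : s.ini b N ≤ b := by
  have h := ncard_le_ncard_of_injOn (s := N ∩ {x | s.idx x < b}) (t := Iio b) s.idx
    (fun x hx => hx.2) s.inj.injOn (finite_Iio b)
  simpa [ini] using h

lemma ini_le_add {b : ℕ} {N A B : Set Ω} (h : N ⊆ A ∪ B) : s.ini b N ≤ s.ini b A + s.ini b B := by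
  refine le_trans (ncard_le_ncard ?_ ?_) (ncard_union_le _ _)
  · rintro x ⟨h1, h2⟩
    exact (h h1).imp (fun h => ⟨h, h2⟩) fun h => ⟨h, h2⟩
  · exact ((ini_fin b).subset inter_subset_right).union ((ini_fin b).subset inter_subset_right)

lemma ini_add_le {b : ℕ} {N A B : Set Ω} (hd : Disjoint A B) (h : A ∪ B ⊆ N) :
    s.ini b A + s.ini b B ≤ s.ini b N := by
  unfold ini
  rw [← ncard_union_eq (hd.mono inter_subset_left inter_subset_left)
    ((ini_fin b).subset inter_subset_right) ((ini_fin b).subset inter_subset_right),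
    ← union_inter_distrib_right]
  exact ncard_le_ncard (inter_subset_inter_left _ h) ((ini_fin b).subset inter_subset_right)

lemma ini_tendsto {D : Set Ω} (hD : D.Infinite) (K : ℕ) : ∀ᶠ b in atTop, K ≤ s.ini b D := by
  obtain ⟨t, ht, htf, htc⟩ := hD.exists_subset_ncard_eq K
  obtain ⟨n, hn⟩ := (htf.image s.idx).bddAbove
  filter_upwards [eventually_gt_atTop n] with b hb
  rw [← htc]
  refine ncard_le_ncard (fun x hx => ⟨ht hx, ?_⟩) ((ini_fin b).subset inter_subset_right)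
  exact lt_of_le_of_lt (hn ⟨x, hx, rfl⟩) hb

lemma top_bdd (b : ℕ) (N : Set Ω) :
    BddAbove (range fun j : ℕ => b * b * s.cnt (b + j) N / s.size (b + j)) := by
  refine ⟨b * b, ?_⟩
  rintro _ ⟨j, rfl⟩
  refine Nat.div_le_of_le_mul ?_
  rw [mul_comm (s.size _)]
  exact Nat.mul_le_mul_left _ (cnt_le_size _ _)

lemma le_top {b j : ℕ} (h : b ≤ j) (N : Set Ω) : b * b * s.cnt j N / s.size j ≤ s.top b N := by
  obtain ⟨i, rfl⟩ := Nat.exists_eq_add_of_le h
  exact le_ciSup (top_bdd b N) i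

lemma top_le {b c : ℕ} {N : Set Ω} (h : ∀ j, b ≤ j → b * b * s.cnt j N / s.size j ≤ c) :
    s.top b N ≤ c :=
  ciSup_le fun j => h _ (Nat.le_add_right b j)

lemma phi_le {b : ℕ} {N A F : Set Ω} (hF : F.Finite) (h : N ⊆ A ∪ F) :
    s.phi b N ≤ s.phi b A + 2 * F.ncard := by
  have h1 : s.top b N ≤ s.top b A + F.ncard := by
    refine top_le fun j hj => le_trans ?_ (Nat.add_le_add_right (le_top hj A) _)
    rcases Nat.eq_zero_or_pos (s.size j) with h0 | h0
    · simp [h0]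
    rw [← Nat.add_mul_div_left _ _ h0]
    refine Nat.div_le_div_right ?_
    have h2 := (cnt_le_add (s := s) (j := j) h).trans
      (Nat.add_le_add_left (cnt_le_ncard j hF) _)
    have h3 := le_size (s := s) hj
    calc b * b * s.cnt j N ≤ b * b * (s.cnt j A + F.ncard) := Nat.mul_le_mul_left _ h2
      _ = b * b * s.cnt j A + b * b * F.ncard := by ring
      _ ≤ _ := Nat.add_le_add_left (Nat.mul_le_mul_right _ h3) _
  have h2 : s.ini b N ≤ s.ini b A + F.ncard :=
    (ini_le_add h).trans (Nat.add_le_add_left (ncard_le_ncard inter_subset_left hF) _)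
  unfold phi
  omega

lemma phi_mono {b : ℕ} {N A : Set Ω} (h : N ⊆ A) : s.phi b N ≤ s.phi b A := by
  simpa using phi_le (s := s) (b := b) (A := A) finite_empty (h.trans subset_union_left)

lemma phi_add_le {b : ℕ} {N A B : Set Ω} (hd : Disjoint A B) (h : A ∪ B ⊆ N) :
    s.phi b A + s.ini b B ≤ s.phi b N := by
  have h1 : s.top b A ≤ s.top b N := top_le fun j hj => le_trans (Nat.div_le_div_right
    (Nat.mul_le_mul_left _ (cnt_mono (subset_union_left.trans h)))) (le_top hj N)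
  have h2 := ini_add_le (s := s) (b := b) hd h
  unfold phi
  omega

lemma phi_local {N : Set Ω} (hN : s.Null N) (b : ℕ) : ∃ F : Set Ω, F.Finite ∧
    ∀ A B : Set Ω, A ⊆ N → B ⊆ N → (∀ x ∈ F, x ∈ A ↔ x ∈ B) → s.phi b A = s.phi b B := by
  obtain ⟨J, hJ⟩ := eventually_atTop.1 ((hN (b * b + 1)).and (eventually_gt_atTop 0))
  have key : ∀ A, A ⊆ N → ∀ j, J ≤ j → b * b * s.cnt j A / s.size j = 0 := by
    intro A hA j hj
    obtain ⟨h1, h2⟩ := hJ j hj
    have h3 := cnt_mono (s := s) (j := j) hA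
    have h4 := self_le_size (s := s) j
    refine Nat.div_eq_of_lt ?_
    rcases Nat.eq_zero_or_pos (s.cnt j N) with h0 | h0
    · have : s.cnt j A = 0 := by omega
      rw [this]; omega
    · have := Nat.mul_le_mul_left (b * b) h3
      nlinarith
  refine ⟨(⋃ j ∈ Iio J, {x | s.blk x = j}) ∪ {x | s.idx x < b},
    ((finite_Iio J).biUnion fun j _ => s.fin j).union (ini_fin b), fun A B hA hB h => ?_⟩
  unfold phi top ini
  congr 1
  · refine iSup_congr fun j => ?_
    rcases lt_or_ge (b + j) J with hj | hj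
    · have : s.cnt (b + j) A = s.cnt (b + j) B := by
        unfold cnt
        congr 1
        ext x
        exact and_congr_left fun hx => h x (Or.inl (mem_biUnion hj hx))
      rw [this]
    · rw [key A hA _ hj, key B hB _ hj]
  · congr 1
    ext x
    exact and_congr_left fun hx => h x (Or.inr hx)

lemma phi_small {N : Set Ω} (hN : s.Null N) (k : ℕ) : ∀ᶠ b in atTop, k * s.phi b N ≤ b * b := by
  obtain ⟨J, hJ⟩ := eventually_atTop.1 (hN (2 * k))
  filter_upwards [eventually_ge_atTop J, eventually_ge_atTop (2 * k)] with b h1 h2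
  rcases Nat.eq_zero_or_pos k with rfl | hk
  · simp
  have h3 : s.top b N ≤ b * b / (2 * k) := by
    refine top_le fun j hj => ?_
    rw [Nat.le_div_iff_mul_le (by omega)]
    rcases Nat.eq_zero_or_pos (s.size j) with h0 | h0
    · simp [h0]
    have h4 := Nat.div_mul_le_self (b * b * s.cnt j N) (s.size j)
    have h5 := hJ j (h1.trans hj)
    refine Nat.le_of_mul_le_mul_right ?_ h0
    calc b * b * s.cnt j N / s.size j * (2 * k) * s.size j
        = (b * b * s.cnt j N / s.size j * s.size j) * (2 * k) := by ring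
      _ ≤ b * b * s.cnt j N * (2 * k) := Nat.mul_le_mul_right _ h4
      _ = b * b * (2 * k * s.cnt j N) := by ring
      _ ≤ _ := Nat.mul_le_mul_left _ h5
  have h4 := Nat.div_mul_le_self (b * b) (2 * k)
  have h5 := ini_le (s := s) b N
  have h6 := Nat.mul_le_mul_left k h3
  have h7 := Nat.mul_le_mul_left k h5
  have h8 := Nat.mul_le_mul_right b h2
  unfold phi
  nlinarith

lemma exists_dom {N D : Set Ω} (hN : s.Null N) (hD : ¬ s.Null D) :
    ∃ D' ⊆ D, s.Null D' ∧ ∀ᶠ b in atTop, s.phi b N ≤ s.phi b D' := by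
  simp only [Null, not_forall, not_eventually, not_le] at hD
  obtain ⟨K, hK⟩ := hD
  obtain ⟨j, hj, hjP⟩ := extraction_forall_of_frequently
    (P := fun k j => s.size j < K * s.cnt j D ∧ ∀ b, j ≤ b → (K + k + 2) * s.phi b N ≤ b * b)
    (fun k => hK.and_eventually (eventually_forall_ge_atTop.2 (phi_small hN _)))
  have hex : ∀ k, ∃ t ⊆ D ∩ {x | s.blk x = j k}, t.ncard = s.size (j k) / (K + k + 1) + 1 := by
    intro k
    refine exists_subset_card_eq ?_
    have h1 := (hjP k).1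
    have h2 : s.size (j k) / (K + k + 1) < s.cnt (j k) D := by
      rw [Nat.div_lt_iff_lt_mul (by omega)]
      nlinarith
    exact h2
  choose t ht htc using hex
  have hcnt : ∀ k, s.cnt (j k) (⋃ k, t k) = s.size (j k) / (K + k + 1) + 1 := by
    intro k
    rw [← htc]
    unfold cnt
    congr 1
    ext x
    simp only [mem_inter_iff, mem_iUnion, mem_ofPred_eq]
    constructor
    · rintro ⟨⟨i, hi⟩, hx⟩
      have : j i = j k := (ht i hi).2.symm.trans hx
      rwa [← hj.injective this]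
    · exact fun hx => ⟨⟨k, hx⟩, (ht k hx).2⟩
  refine ⟨⋃ k, t k, iUnion_subset fun k => (ht k).trans inter_subset_left, fun p => ?_, ?_⟩
  · filter_upwards [eventually_ge_atTop (j (2 * p))] with i hi
    by_cases h : i ∈ range j
    · obtain ⟨k, rfl⟩ := h
      have hk : 2 * p ≤ k := hj.le_iff_le.1 hi
      have h1 := (hj.id_le k).trans (self_le_size (s := s) (j k))
      have h2 := Nat.div_mul_le_self (s.size (j k)) (K + k + 1)
      rw [hcnt]
      simp only [id] at h1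
      have h3 : s.size (j k) / (K + k + 1) * (2 * p) ≤ s.size (j k) / (K + k + 1) * (K + k + 1) :=
        Nat.mul_le_mul_left _ (by omega)
      nlinarith
    · have : s.cnt i (⋃ k, t k) = 0 := by
        unfold cnt
        rw [ncard_eq_zero ((s.fin i).subset inter_subset_right), eq_empty_iff_forall_notMem]
        rintro x ⟨hx, hx'⟩
        obtain ⟨k, hk⟩ := mem_iUnion.1 hx
        exact h ⟨k, (ht k hk).2.symm.trans hx'⟩
      rw [this]; simp
  · filter_upwards [eventually_gt_atTop (j 0)] with b hb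
    have hex : ∃ k, b ≤ j (k + 1) := ⟨b, by have := hj.id_le (b + 1); simp only [id] at this; omega⟩
    classical
    have h1 := Nat.find_spec hex
    set k := Nat.find hex with hk
    have h2 : j k ≤ b := by
      rcases Nat.eq_zero_or_pos k with h0 | h0
      · rw [h0]; exact hb.le
      · have := Nat.find_min hex (m := k - 1) (by omega)
        rw [Nat.sub_add_cancel h0] at this
        omega
    have h3 := (hjP k).2 b h2
    refine le_trans ?_ ((le_top h1 _).trans (Nat.le_add_right _ _))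
    have h0 : 0 < s.size (j (k + 1)) := by have := self_le_size (s := s) (j (k + 1)); omega
    rw [Nat.le_div_iff_mul_le h0, hcnt]
    have h4 : s.size (j (k + 1)) < (s.size (j (k + 1)) / (K + (k + 1) + 1) + 1) * (K + (k + 1) + 1) := by
      rw [← Nat.div_lt_iff_lt_mul (by omega)]; omega
    calc s.phi b N * s.size (j (k + 1))
        ≤ s.phi b N * ((s.size (j (k + 1)) / (K + (k + 1) + 1) + 1) * (K + (k + 1) + 1)) :=
          Nat.mul_le_mul_left _ h4.le
      _ = (K + k + 2) * s.phi b N * (s.size (j (k + 1)) / (K + (k + 1) + 1) + 1) := by ring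
      _ ≤ _ := Nat.mul_le_mul_right _ h3

variable (s)

/-- `X` differs from `m` by a null set -/
def Cls (m X : Set Ω) : Prop := s.Null (X \ m) ∧ s.Null (m \ X)

/-- `X` is not above the ties -/
def Low (m X : Set Ω) : Prop := ∃ K : ℕ, ∀ᶠ b in atTop, s.phi b (X \ m) ≤ s.phi b (m \ X) + K

/-- `X` is not below the ties -/
def High (m X : Set Ω) : Prop := ∃ K : ℕ, ∃ᶠ b in atTop, s.phi b (m \ X) ≤ s.phi b (X \ m) + K

/-- the ties in the class of `m` -/
def Tie (m Z : Set Ω) : Prop := s.Cls m Z ∧ s.Low m Z ∧ s.High m Z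

variable {s} {m X Y Z : Set Ω}

lemma step_le {F : Set Ω} (hF : F.Finite) (h : X ⊆ Y ∪ F) (b : ℕ) :
    s.phi b (X \ m) ≤ s.phi b (Y \ m) + 2 * F.ncard ∧
      s.phi b (m \ Y) ≤ s.phi b (m \ X) + 2 * F.ncard := by
  refine ⟨phi_le hF fun x hx => (h hx.1).imp_left fun h => ⟨h, hx.2⟩, phi_le hF fun x hx => ?_⟩
  by_cases hX : x ∈ X
  · exact Or.inr ((h hX).resolve_left hx.2)
  · exact Or.inl ⟨hx.1, hX⟩

lemma High.of_finite (h : s.High m X) (hf : (X \ Y).Finite) : s.High m Y := by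
  obtain ⟨K, hK⟩ := h
  refine ⟨K + 4 * (X \ Y).ncard, hK.mono fun b hb => ?_⟩
  have := step_le (s := s) (m := m) (X := X) (Y := Y) hf (by simp) b
  omega

lemma High.mono (h : s.High m X) (hs : X ⊆ Y) : s.High m Y :=
  h.of_finite (by simp [sdiff_eq_empty.2 hs])

lemma Low.mono (h : s.Low m Y) (hs : X ⊆ Y) : s.Low m X := by
  obtain ⟨K, hK⟩ := h
  refine ⟨K, hK.mono fun b hb => ?_⟩
  have := step_le (s := s) (m := m) (X := X) (Y := Y) finite_empty (by simpa using hs) b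
  simp only [ncard_empty] at this
  omega

lemma low_or_high (m X : Set Ω) : s.Low m X ∨ s.High m X := by
  by_contra h
  simp only [Low, High, not_or, not_exists, not_eventually, not_frequently, not_le] at h
  obtain ⟨b, h1, h2⟩ := ((h.1 0).and_eventually (h.2 0)).exists
  omega

lemma tie_self (m : Set Ω) : s.Tie m m := by
  refine ⟨⟨by simpa using null_empty, by simpa using null_empty⟩, ⟨0, ?_⟩, ⟨0, ?_⟩⟩
  · exact Eventually.of_forall fun b => le_rfl
  · exact Frequently.of_forall fun b => le_rfl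

lemma strict {Z' : Set Ω} (hZ : s.High m Z) (hZ' : s.Low m Z') (hf : (Z \ Z').Finite) :
    (Z' \ Z).Finite := by
  by_contra hinf
  obtain ⟨K, hK⟩ := hZ.of_finite (Y := Z ∩ Z') (by simpa using hf)
  obtain ⟨K', hK'⟩ := hZ'
  obtain ⟨b, h1, h2, h3⟩ :=
    (hK.and_eventually (hK'.and (ini_tendsto (s := s) hinf (K + K' + 1)))).exists
  have h4 := phi_add_le (s := s) (b := b) (N := Z' \ m) (A := (Z ∩ Z') \ m) (B := (Z' \ Z) \ m)
    (disjoint_left.2 fun x hx hx' => hx'.1.2 hx.1.1)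
    (union_subset (fun x hx => ⟨hx.1.2, hx.2⟩) fun x hx => ⟨hx.1.1, hx.2⟩)
  have h5 := phi_add_le (s := s) (b := b) (N := m \ (Z ∩ Z')) (A := m \ Z') (B := (Z' \ Z) ∩ m)
    (disjoint_left.2 fun x hx hx' => hx.2 hx'.1.1)
    (union_subset (fun x hx => ⟨hx.1, fun h => hx.2 h.2⟩) fun x hx => ⟨hx.2, fun h => hx.1.2 h.1⟩)
  have h6 := ini_le_add (s := s) (b := b) (N := Z' \ Z) (A := (Z' \ Z) \ m) (B := (Z' \ Z) ∩ m)
    (by simp)
  omega

lemma Cls.between (hX : s.Cls m X) (hY : s.Cls m Y) (h1 : X ⊆ Z) (h2 : Z ⊆ Y) : s.Cls m Z :=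
  ⟨hY.1.mono (sdiff_subset_sdiff_left h2), hX.2.mono (sdiff_subset_sdiff_right h1)⟩

lemma ivp (hX : s.Cls m X) (hY : s.Cls m Y) (hXY : X ⊆ Y) (hL : s.Low m X) (hH : s.High m Y) :
    ∃ Z, s.Tie m Z ∧ X ⊆ Z ∧ Z ⊆ Y := by
  obtain ⟨K, hK⟩ := hL
  obtain ⟨b₀, hb₀⟩ := eventually_atTop.1 hK
  have hloc : ∀ b, ∃ F : Set Ω, F.Finite ∧ ∀ A B : Set Ω, X ⊆ A → A ⊆ Y → X ⊆ B → B ⊆ Y →
      (∀ x ∈ F, x ∈ A ↔ x ∈ B) →
      s.phi b (A \ m) = s.phi b (B \ m) ∧ s.phi b (m \ A) = s.phi b (m \ B) := by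
    intro b
    obtain ⟨F, hF, h1⟩ := phi_local hY.1 b
    obtain ⟨G, hG, h2⟩ := phi_local hX.2 b
    refine ⟨F ∪ G, hF.union hG, fun A B a1 a2 b1 b2 h => ⟨?_, ?_⟩⟩
    · exact h1 _ _ (sdiff_subset_sdiff_left a2) (sdiff_subset_sdiff_left b2)
        fun x hx => and_congr_left fun _ => h x (Or.inl hx)
    · exact h2 _ _ (sdiff_subset_sdiff_right a1) (sdiff_subset_sdiff_right b1)
        fun x hx => and_congr_right fun _ => not_congr (h x (Or.inr hx))
  choose F hF hFl using hloc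
  obtain ⟨Z, -, hZ⟩ := zorn_subset_nonempty
    {Z | X ⊆ Z ∧ Z ⊆ Y ∧ ∀ b, b₀ ≤ b → s.phi b (Z \ m) ≤ s.phi b (m \ Z) + K} (by
      intro c hc hch hne
      have h1 : X ⊆ ⋃₀ c := by
        obtain ⟨A, hA⟩ := hne
        exact (hc hA).1.trans (subset_sUnion_of_mem hA)
      have h2 : ⋃₀ c ⊆ Y := sUnion_subset fun A hA => (hc hA).2.1
      refine ⟨⋃₀ c, ⟨h1, h2, fun b hb => ?_⟩, fun A hA => subset_sUnion_of_mem hA⟩
      obtain ⟨A, hA, hA'⟩ := DirectedOn.exists_mem_subset_of_finset_subset_biUnion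
        (f := fun A : Set Ω => A) hne hch.directedOn
        (s := ((hF b).subset (inter_subset_left (t := ⋃₀ c))).toFinset)
        (by rw [Finite.coe_toFinset, ← sUnion_eq_biUnion]; exact inter_subset_right)
      rw [Finite.coe_toFinset] at hA'
      obtain ⟨e1, e2⟩ := hFl b A (⋃₀ c) (hc hA).1 (hc hA).2.1 h1 h2
        fun x hx => ⟨fun h => subset_sUnion_of_mem hA h, fun h => hA' ⟨hx, h⟩⟩
      rw [← e1, ← e2]
      exact (hc hA).2.2 b hb) X ⟨subset_rfl, hXY, hb₀⟩
  obtain ⟨h1, h2, h3⟩ := hZ.prop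
  refine ⟨Z, ⟨hX.between hY h1 h2, ⟨K, eventually_atTop.2 ⟨b₀, h3⟩⟩, ?_⟩, h1, h2⟩
  by_cases hf : (Y \ Z).Finite
  · exact hH.of_finite hf
  refine ⟨4, frequently_atTop.2 fun n => ?_⟩
  obtain ⟨y, hy, hy'⟩ := (Set.Infinite.sdiff hf ((finite_Iio n).biUnion fun b _ => hF b)).nonempty
  have hnot : ¬ ∀ b, b₀ ≤ b → s.phi b (insert y Z \ m) ≤ s.phi b (m \ insert y Z) + K := fun h =>
    hy.2 (hZ.le_of_ge ⟨h1.trans (subset_insert _ _), insert_subset hy.1 h2, h⟩
      (subset_insert y Z) (mem_insert _ _))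
  simp only [not_forall, not_le] at hnot
  obtain ⟨b, hb, hlt⟩ := hnot
  refine ⟨b, ?_, ?_⟩
  · by_contra hbn
    obtain ⟨e1, e2⟩ := hFl b (insert y Z) Z (h1.trans (subset_insert _ _)) (insert_subset hy.1 h2)
      h1 h2 fun x hx => ⟨fun h => h.resolve_left fun e => hy' (mem_biUnion (not_le.1 hbn) (e ▸ hx)),
        fun h => Or.inr h⟩
    have := h3 b hb
    omega
  · have e1 := step_le (s := s) (m := m) (X := insert y Z) (Y := Z) (finite_singleton y)
      (by simp) b
    have e2 := phi_le (s := s) (b := b) (N := m \ Z) (A := m \ insert y Z) (finite_singleton y)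
      (fun x hx => by
        by_cases h : x = y
        · exact Or.inr h
        · exact Or.inl ⟨hx.1, fun h' => h'.elim h hx.2⟩)
    simp only [ncard_singleton] at e1 e2
    omega

lemma tie_up (hX : s.Cls m X) (hL : s.Low m X) (hXY : X ⊆ Y) (hn : ¬ s.Null (Y \ X)) :
    ∃ Z, s.Tie m Z ∧ X ⊆ Z ∧ Z ⊆ Y := by
  have hD : ¬ s.Null ((Y \ X) \ m) := fun h => hn (h.of_subset_union hX.2 fun x hx => by
    by_cases hm : x ∈ m
    · exact Or.inr ⟨hm, hx.2⟩
    · exact Or.inl ⟨hx, hm⟩)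
  obtain ⟨D, hD1, hD2, hD3⟩ := exists_dom hX.2 hD
  obtain ⟨Z, h1, h2, h3⟩ := ivp (Y := X ∪ D) hX
    ⟨hX.1.of_subset_union hD2 fun x hx => hx.1.imp_left fun h => ⟨h, hx.2⟩,
      hX.2.mono (sdiff_subset_sdiff_right subset_union_left)⟩ subset_union_left hL
    ⟨0, (hD3.mono fun b hb => by
      have e1 := phi_mono (s := s) (b := b) (N := m \ (X ∪ D)) (A := m \ X)
        (sdiff_subset_sdiff_right subset_union_left)
      have e2 := phi_mono (s := s) (b := b) (N := D) (A := (X ∪ D) \ m)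
        fun x hx => ⟨Or.inr hx, (hD1 hx).2⟩
      omega).frequently⟩
  exact ⟨Z, h1, h2, h3.trans (union_subset hXY fun x hx => (hD1 hx).1.1)⟩

lemma tie_down (hY : s.Cls m Y) (hH : s.High m Y) (hXY : X ⊆ Y) (hn : ¬ s.Null (Y \ X)) :
    ∃ Z, s.Tie m Z ∧ X ⊆ Z ∧ Z ⊆ Y := by
  have hD : ¬ s.Null ((Y \ X) ∩ m) := fun h => hn (h.of_subset_union hY.1 fun x hx => by
    by_cases hm : x ∈ m
    · exact Or.inl ⟨hx, hm⟩
    · exact Or.inr ⟨hx.1, hm⟩)
  obtain ⟨D, hD1, hD2, hD3⟩ := exists_dom hY.1 hD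
  obtain ⟨Z, h1, h2, h3⟩ := ivp (X := Y \ D)
    ⟨hY.1.mono (sdiff_subset_sdiff_left sdiff_subset),
      hY.2.of_subset_union hD2 fun x hx => by
        by_cases h : x ∈ D
        · exact Or.inr h
        · exact Or.inl ⟨hx.1, fun h' => hx.2 ⟨h', h⟩⟩⟩ hY sdiff_subset
    ⟨0, hD3.mono fun b hb => by
      have e1 := phi_mono (s := s) (b := b) (N := (Y \ D) \ m) (A := Y \ m)
        (sdiff_subset_sdiff_left sdiff_subset)
      have e2 := phi_mono (s := s) (b := b) (N := D) (A := m \ (Y \ D))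
        fun x hx => ⟨(hD1 hx).2, fun h => h.2 hx⟩
      omega⟩ hH
  exact ⟨Z, h1, fun x hx => h2 ⟨hXY hx, fun h => (hD1 h).1.2 hx⟩, h3⟩

lemma tie_below (hm : ¬ s.Null m) (hY : s.Cls m Y) (hH : s.High m Y) :
    ∃ Z, s.Tie m Z ∧ Z ⊆ Y := by
  obtain ⟨Z, h1, -, h2⟩ := tie_down hY hH (empty_subset Y)
    fun h => hm (by simpa using hY.2.trans h)
  exact ⟨Z, h1, h2⟩

lemma tie_above (hm : ¬ s.Null mᶜ) (hX : s.Cls m X) (hL : s.Low m X) :
    ∃ Z, s.Tie m Z ∧ X ⊆ Z := by
  obtain ⟨Z, h1, h2, -⟩ := tie_up hX hL (subset_univ X)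
    fun h => hm (by simpa [compl_eq_univ_sdiff] using h.trans hX.1)
  exact ⟨Z, h1, h2⟩

theorem chart_task (hm : ¬ s.Null m) (hm' : ¬ s.Null mᶜ) (hXY : X ⊆ Y)
    (h : s.Null (m \ X) ∨ s.Null (Y \ m) ∨ (X ⊆ m ∧ m ⊆ Y)) :
    ∃ Z, s.Tie m Z ∧ (Z ⊆ X ∨ Y ⊆ Z ∨ (X ⊆ Z ∧ Z ⊆ Y)) := by
  rcases h with h | h | h
  · by_cases h1 : s.Null (X \ m)
    · have hX : s.Cls m X := ⟨h1, h⟩
      rcases low_or_high (s := s) m X with hL | hH
      · by_cases h2 : s.Null (Y \ X)
        · have hY : s.Cls m Y := ⟨h2.trans h1, h.mono (sdiff_subset_sdiff_right hXY)⟩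
          rcases low_or_high (s := s) m Y with hL' | hH'
          · obtain ⟨Z, h3, h4⟩ := tie_above hm' hY hL'
            exact ⟨Z, h3, Or.inr (Or.inl h4)⟩
          · obtain ⟨Z, h3, h4⟩ := ivp hX hY hXY hL hH'
            exact ⟨Z, h3, Or.inr (Or.inr h4)⟩
        · obtain ⟨Z, h3, h4⟩ := tie_up hX hL hXY h2
          exact ⟨Z, h3, Or.inr (Or.inr h4)⟩
      · obtain ⟨Z, h3, h4⟩ := tie_below hm hX hH
        exact ⟨Z, h3, Or.inl h4⟩
    · have hX : s.Cls m (X ∩ m) :=
        ⟨null_sdiff_of_subset inter_subset_right, by simpa using h⟩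
      rcases low_or_high (s := s) m (X ∩ m) with hL | hH
      · obtain ⟨Z, h3, -, h4⟩ := tie_up hX hL inter_subset_left (by simpa using h1)
        exact ⟨Z, h3, Or.inl h4⟩
      · obtain ⟨Z, h3, h4⟩ := tie_below hm hX hH
        exact ⟨Z, h3, Or.inl (h4.trans inter_subset_left)⟩
  · by_cases h1 : s.Null (m \ Y)
    · have hY : s.Cls m Y := ⟨h, h1⟩
      rcases low_or_high (s := s) m Y with hL | hH
      · obtain ⟨Z, h3, h4⟩ := tie_above hm' hY hL
        exact ⟨Z, h3, Or.inr (Or.inl h4)⟩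
      · by_cases h2 : s.Null (Y \ X)
        · have hX : s.Cls m X := ⟨h.mono (sdiff_subset_sdiff_left hXY), h1.trans h2⟩
          rcases low_or_high (s := s) m X with hL' | hH'
          · obtain ⟨Z, h3, h4⟩ := ivp hX hY hXY hL' hH
            exact ⟨Z, h3, Or.inr (Or.inr h4)⟩
          · obtain ⟨Z, h3, h4⟩ := tie_below hm hX hH'
            exact ⟨Z, h3, Or.inl h4⟩
        · obtain ⟨Z, h3, h4⟩ := tie_down hY hH hXY h2
          exact ⟨Z, h3, Or.inr (Or.inr h4)⟩
    · have hY : s.Cls m (Y ∪ m) :=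
        ⟨by simpa using h, null_sdiff_of_subset subset_union_right⟩
      rcases low_or_high (s := s) m (Y ∪ m) with hL | hH
      · obtain ⟨Z, h3, h4⟩ := tie_above hm' hY hL
        exact ⟨Z, h3, Or.inr (Or.inl (subset_union_left.trans h4))⟩
      · obtain ⟨Z, h3, h4, -⟩ := tie_down hY hH subset_union_left (by simpa using h1)
        exact ⟨Z, h3, Or.inr (Or.inl h4)⟩
  · exact ⟨m, tie_self m, Or.inr (Or.inr h)⟩

end Blk

end Vale.Agent.P068
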