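import Vale.Agent.P068.Unif

namespace Vale.Agent.P068

open Set Matroid

variable {α : Type*}

/-- a strongly maximal antichain modulo finite sets -/
structure Ties (T : Set (Set α)) : Prop where
  inc : ∀ Z ∈ T, ∀ Z' ∈ T, (Z \ Z').Finite → (Z' \ Z).Finite
  task : ∀ I X, I ⊆ X → ∃ Z ∈ T, Z ⊆ I ∨ X ⊆ Z ∨ (I ⊆ Z ∧ Z ⊆ X)

lemma exists_near_between {I X R : Set α} (hIX : I ⊆ X) (h1 : (I \ R).Finite)
    (h2 : (R \ X).Finite) (h3 : (R \ I).Infinite) (h4 : (X \ R).Infinite) :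
    ∃ B, Near B R ∧ I ⊆ B ∧ B ⊆ X := by
  rcases le_or_gt (I \ R).encard (R \ X).encard with h | h
  · obtain ⟨k, hk⟩ := exists_add_of_le h
    have hinf : ((X \ R) \ I).Infinite :=
      (h4.sdiff h1).mono fun x hx => ⟨hx.1, fun hi => hx.2 ⟨hi, hx.1.2⟩⟩
    obtain ⟨F, hF, hFc⟩ := exists_subset_encard_eq (k := k) (s := (X \ R) \ I)
      (by rw [hinf.encard_eq]; exact le_top)
    have e1 : ((R ∩ X) ∪ I ∪ F) \ R = (I \ R) ∪ F := by
      ext x; have := @hF x; simp only [mem_sdiff, mem_union, mem_inter_iff] at this ⊢; tauto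
    have e2 : R \ ((R ∩ X) ∪ I ∪ F) = R \ X := by
      ext x; have := @hF x; have := @hIX x
      simp only [mem_sdiff, mem_union, mem_inter_iff] at *; tauto
    have e3 : (((R ∩ X) ∪ I ∪ F) \ R).encard = (R \ ((R ∩ X) ∪ I ∪ F)).encard := by
      rw [e1, e2, encard_union_eq, hFc, hk]
      exact disjoint_left.2 fun x hx hx' => (hF hx').2 hx.1
    refine ⟨(R ∩ X) ∪ I ∪ F, ⟨?_, e3⟩, subset_union_right.trans subset_union_left,
      union_subset (union_subset inter_subset_right hIX) fun x hx => (hF hx).1.1⟩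
    rw [← encard_lt_top_iff, e3, e2, encard_lt_top_iff]; exact h2
  · obtain ⟨k, hk⟩ := exists_add_of_le h.le
    have hinf : ((R \ I) ∩ X).Infinite :=
      (h3.sdiff h2).mono fun x hx => ⟨hx.1, by_contra fun hi => hx.2 ⟨hx.1.1, hi⟩⟩
    obtain ⟨F, hF, hFc⟩ := exists_subset_encard_eq (k := k) (s := (R \ I) ∩ X)
      (by rw [hinf.encard_eq]; exact le_top)
    have e1 : (((R ∩ X) \ F) ∪ I) \ R = I \ R := by
      ext x; simp only [mem_sdiff, mem_union, mem_inter_iff]; tauto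
    have e2 : R \ (((R ∩ X) \ F) ∪ I) = (R \ X) ∪ F := by
      ext x; have := @hF x; have := @hIX x
      simp only [mem_sdiff, mem_union, mem_inter_iff] at *; tauto
    refine ⟨((R ∩ X) \ F) ∪ I, ⟨by rwa [e1], ?_⟩, subset_union_right,
      union_subset (sdiff_subset.trans inter_subset_right) hIX⟩
    rw [e1, e2, encard_union_eq, hFc, hk]
    exact disjoint_left.2 fun x hx hx' => hx.2 (hF hx').2

lemma finite_sdiff_trans {A B C : Set α} (h1 : (A \ B).Finite) (h2 : (B \ C).Finite) :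
    (A \ C).Finite :=
  (h1.union h2).subset fun x hx => by
    by_cases hb : x ∈ B
    · exact Or.inr ⟨hb, hx.2⟩
    · exact Or.inl ⟨hx.1, hb⟩

/-- chosen representative of the class of `Z` -/
noncomputable def rep (T : Set (Set α)) (Z : Set α) : Set α :=
  Classical.epsilon fun R => R ∈ T ∧ (R \ Z).Finite ∧ (Z \ R).Finite

variable {T : Set (Set α)}

lemma rep_spec {Z : Set α} (hZ : Z ∈ T) :
    rep T Z ∈ T ∧ (rep T Z \ Z).Finite ∧ (Z \ rep T Z).Finite :=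
  Classical.epsilon_spec (p := fun R => R ∈ T ∧ (R \ Z).Finite ∧ (Z \ R).Finite)
    ⟨Z, hZ, by simp, by simp⟩

lemma rep_congr {Z Z' : Set α} (h1 : (Z \ Z').Finite) (h2 : (Z' \ Z).Finite) :
    rep T Z = rep T Z' := by
  unfold rep
  congr 1
  ext R
  exact ⟨fun h => ⟨h.1, finite_sdiff_trans h.2.1 h1, finite_sdiff_trans h2 h.2.2⟩,
    fun h => ⟨h.1, finite_sdiff_trans h.2.1 h2, finite_sdiff_trans h1 h.2.2⟩⟩

lemma Ties.antichain (h : Ties T) {B B' : Set α} (hB : IsB (rep T '' T) B)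
    (hB' : IsB (rep T '' T) B') (hs : B ⊆ B') : B = B' := by
  obtain ⟨_, ⟨Z, hZ, rfl⟩, hn⟩ := hB
  obtain ⟨_, ⟨Z', hZ', rfl⟩, hn'⟩ := hB'
  have h1 : (Z \ Z').Finite := by
    refine finite_sdiff_trans (rep_spec hZ).2.2 (finite_sdiff_trans hn.fin' ?_)
    refine finite_sdiff_trans (B := B') (by simp [sdiff_eq_empty.2 hs]) ?_
    exact finite_sdiff_trans hn'.1 (rep_spec hZ').2.1
  rw [← rep_congr h1 (h.inc Z hZ Z' hZ' h1)] at hn'
  exact hn.eq_of_subset hn' hs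

lemma u3_aux {I X R : Set α} (hIX : I ⊆ X) (hinf : (X \ I).Infinite)
    (h : (R \ I).Finite ∨ (X \ R).Finite ∨ ((I \ R).Finite ∧ (R \ X).Finite)) :
    ∃ B, Near B R ∧ (B ⊆ I ∨ X ⊆ B ∨ (I ⊆ B ∧ B ⊆ X)) := by
  by_cases h1 : (R \ I).Finite
  · rcases le_or_gt (R \ I).encard (I \ R).encard with h2 | h2
    · obtain ⟨B, hB, hs⟩ := exists_near_subset h1 h2
      exact ⟨B, hB, Or.inl hs⟩
    · obtain ⟨k, hk⟩ := exists_add_of_le h2.le
      have hinf' : ((X \ I) \ R).Infinite :=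
        (hinf.sdiff h1).mono fun x hx => ⟨hx.1, fun hr => hx.2 ⟨hr, hx.1.2⟩⟩
      obtain ⟨F, hF, hFc⟩ := exists_subset_encard_eq (k := k) (s := (X \ I) \ R)
        (by rw [hinf'.encard_eq]; exact le_top)
      have e1 : (I ∪ F) \ R = (I \ R) ∪ F := by
        ext x; have := @hF x; simp only [mem_sdiff, mem_union] at this ⊢; tauto
      have e2 : R \ (I ∪ F) = R \ I := by
        ext x; have := @hF x; simp only [mem_sdiff, mem_union] at this ⊢; tauto
      have e3 : ((I ∪ F) \ R).encard = (R \ (I ∪ F)).encard := by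
        rw [e1, e2, encard_union_eq, hFc, hk]
        exact disjoint_left.2 fun x hx hx' => (hF hx').1.2 hx.1
      refine ⟨I ∪ F, ⟨?_, e3⟩, Or.inr (Or.inr ⟨subset_union_left,
        union_subset hIX fun x hx => (hF hx).1.1⟩)⟩
      rw [← encard_lt_top_iff, e3, e2, encard_lt_top_iff]; exact h1
  by_cases h1' : (X \ R).Finite
  · rcases le_or_gt (X \ R).encard (R \ X).encard with h2 | h2
    · obtain ⟨B, hB, hs⟩ := exists_near_superset h1' h2
      exact ⟨B, hB, Or.inr (Or.inl hs)⟩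
    · obtain ⟨k, hk⟩ := exists_add_of_le h2.le
      have hinf' : ((X \ I) ∩ R).Infinite :=
        (hinf.sdiff h1').mono fun x hx => ⟨hx.1, by_contra fun hr => hx.2 ⟨hx.1.1, hr⟩⟩
      obtain ⟨F, hF, hFc⟩ := exists_subset_encard_eq (k := k) (s := (X \ I) ∩ R)
        (by rw [hinf'.encard_eq]; exact le_top)
      have e1 : (X \ F) \ R = X \ R := by
        ext x; have := @hF x; simp only [mem_sdiff, mem_inter_iff] at this ⊢; tauto
      have e2 : R \ (X \ F) = (R \ X) ∪ F := by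
        ext x; have := @hF x; simp only [mem_sdiff, mem_union, mem_inter_iff] at this ⊢; tauto
      refine ⟨X \ F, ⟨by rwa [e1], ?_⟩, Or.inr (Or.inr ⟨fun x hx =>
        ⟨hIX hx, fun hx' => (hF hx').1.2 hx⟩, sdiff_subset⟩)⟩
      rw [e1, e2, encard_union_eq, hFc, hk]
      exact disjoint_left.2 fun x hx hx' => hx.2 (hF hx').1.1
  obtain ⟨h3, h4⟩ := (h.resolve_left h1).resolve_left h1'
  obtain ⟨B, hB, hs⟩ := exists_near_between hIX h3 h4 h1 h1'
  exact ⟨B, hB, Or.inr (Or.inr hs)⟩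

lemma Ties.u3 (h : Ties T) {I X : Set α} (hIX : I ⊆ X) (hinf : (X \ I).Infinite) :
    ∃ B, IsB (rep T '' T) B ∧ (B ⊆ I ∨ X ⊆ B ∨ (I ⊆ B ∧ B ⊆ X)) := by
  obtain ⟨Z, hZ, h1⟩ := h.task I X hIX
  obtain ⟨-, h2, h3⟩ := rep_spec hZ
  obtain ⟨B, hB, hs⟩ := u3_aux (R := rep T Z) hIX hinf (by
    rcases h1 with h1 | h1 | h1
    · exact Or.inl (h2.subset (sdiff_subset_sdiff_right h1))
    · exact Or.inr (Or.inl (h3.subset (sdiff_subset_sdiff_left h1)))
    · exact Or.inr (Or.inr ⟨h3.subset (sdiff_subset_sdiff_left h1.1),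
        h2.subset (sdiff_subset_sdiff_right h1.2)⟩))
  exact ⟨B, ⟨_, ⟨Z, hZ, rfl⟩, hB⟩, hs⟩

lemma Ties.ne (h : Ties T) : ∃ R, R ∈ rep T '' T := by
  obtain ⟨Z, hZ, -⟩ := h.task ∅ ∅ subset_rfl
  exact ⟨_, Z, hZ, rfl⟩

/-- the uniform matroid defined by the antichain -/
def Ties.matroid (h : Ties T) : Matroid α :=
  Matroid.ofBase univ (IsB (rep T '' T))
    (by obtain ⟨R, hR⟩ := h.ne; exact ⟨R, R, hR, Near.refl R⟩)
    (by
      intro B B' hB hB' a ha
      have : (B' \ B).Nonempty := by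
        rw [sdiff_nonempty]
        intro hs
        exact ha.2 (h.antichain hB' hB hs ▸ ha.1)
      obtain ⟨b, hb⟩ := this
      obtain ⟨R, hR, hn⟩ := hB
      exact ⟨b, hb, R, hR, hn.exchange ha.1 hb.2⟩)
    (by
      intro X _ I hI hIX
      by_cases hinf : (X \ I).Infinite
      · obtain ⟨B, hB, h1 | h1 | h1⟩ := h.u3 hIX hinf
        · refine ⟨I, subset_rfl, ⟨hI, hIX⟩, ?_⟩
          rintro J ⟨⟨B', hB', hJ⟩, -⟩ hIJ
          have := h.antichain hB hB' (h1.trans (hIJ.trans hJ))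
          exact hJ.trans (this ▸ h1)
        · exact ⟨X, hIX, ⟨⟨B, hB, h1⟩, subset_rfl⟩, fun J hJ _ => hJ.2⟩
        · refine ⟨B, h1.1, ⟨⟨B, hB, subset_rfl⟩, h1.2⟩, ?_⟩
          rintro J ⟨⟨B', hB', hJ⟩, -⟩ hIJ
          have := h.antichain hB hB' (hIJ.trans hJ)
          exact this ▸ hJ
      · have hfin : (X \ I).Finite := not_infinite.1 hinf
        have hf : {J | ((∃ B, IsB (rep T '' T) B ∧ J ⊆ B) ∧ J ⊆ X) ∧ I ⊆ J}.Finite := by
          refine (hfin.powerset.image (fun T => I ∪ T)).subset fun J hJ => ?_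
          exact ⟨J \ I, sdiff_subset_sdiff_left hJ.1.2, by simpa using hJ.2⟩
        obtain ⟨J, hJ⟩ := hf.exists_maximal ⟨I, ⟨hI, hIX⟩, subset_rfl⟩
        exact ⟨J, hJ.1.2, hJ.1.1, fun K hK hJK => hJ.2 ⟨hK, hJ.1.2.trans hJK⟩ hJK⟩)
    (fun _ _ => subset_univ _)

lemma Ties.isBase (h : Ties T) {B : Set α} : h.matroid.IsBase B ↔ IsB (rep T '' T) B := Iff.rfl

lemma Ties.base_near (h : Ties T) {B : Set α} (hB : h.matroid.IsBase B) :
    ∃ Z ∈ T, (B \ Z).Finite ∧ (Z \ B).Finite := by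
  obtain ⟨_, ⟨Z, hZ, rfl⟩, hn⟩ := h.isBase.1 hB
  exact ⟨_, (rep_spec hZ).1, hn.1, hn.fin'⟩

lemma Ties.unif (h : Ties T) : Unif h.matroid := by
  intro X _
  have sp : ∀ B, IsB (rep T '' T) B → B ⊆ X → h.matroid.Spanning X := fun B hB hs =>
    (h.isBase.2 hB).spanning_of_superset hs (subset_univ _)
  have ind : ∀ B, IsB (rep T '' T) B → X ⊆ B → h.matroid.Indep X := fun B hB hs =>
    (h.isBase.2 hB).indep.subset hs
  by_cases hX : X.Infinite
  · obtain ⟨B, hB, h1 | h1 | h1⟩ := h.u3 (empty_subset X) (by simpa using hX)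
    · exact Or.inr (sp B hB (h1.trans (empty_subset _)))
    · exact Or.inl (ind B hB h1)
    · exact Or.inr (sp B hB h1.2)
  · have hX := not_infinite.1 hX
    obtain ⟨R, hR⟩ := h.ne
    rcases le_or_gt (X \ R).encard (R \ X).encard with h2 | h2
    · obtain ⟨B, hB, hs⟩ := exists_near_superset hX.sdiff h2
      exact Or.inl (ind B ⟨R, hR, hB⟩ hs)
    · have : (R \ X).Finite := by
        rw [← encard_lt_top_iff]; exact h2.trans_le le_top
      obtain ⟨B, hB, hs⟩ := exists_near_subset this h2.le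
      exact Or.inr (sp B ⟨R, hR, hB⟩ hs)

end Vale.Agent.P068
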