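import Vale.Agent.P068.ZChart
import Vale.Agent.P068.ZMat

namespace Vale.Agent.P068

open Set Filter

/-- the data needed for the recursion of length continuum -/
structure Reg {Ω : Type} (s : Blk Ω) (Cok Pok : Set Ω → Prop) : Prop where
  hC : ∀ X Y, s.Null (X \ Y) → Cok Y → Cok X
  hP : ∀ X Y, s.Null (X \ Y) → Pok X → Pok Y
  dich : ∀ X, Cok X ∨ Pok X
  h0 : ¬ Pok ∅
  h1 : ¬ Cok univ
  split : ∀ 𝒬 : Set (Set Ω), Cardinal.mk 𝒬 < Cardinal.continuum → (∀ q ∈ 𝒬, ¬ s.Null q) →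
    ∀ a b, a ⊆ b → Cok a → Pok b → ∃ Z, a ⊆ Z ∧ Z ⊆ b ∧ Cok Z ∧ Pok Z ∧
      ∀ q ∈ 𝒬, q ⊆ b \ a → ¬ s.Null (q ∩ Z) ∧ ¬ s.Null (q \ Z)

variable {Ω : Type} {s : Blk Ω} {Cok Pok : Set Ω → Prop}

lemma Reg.not_null (h : Reg s Cok Pok) {m : Set Ω} (hm : Pok m) : ¬ s.Null m :=
  fun hn => h.h0 (h.hP m ∅ (by simpa using hn) hm)

lemma Reg.not_conull (h : Reg s Cok Pok) {m : Set Ω} (hm : Cok m) : ¬ s.Null mᶜ :=
  fun hn => h.h1 (h.hC univ m (by simpa [compl_eq_univ_sdiff] using hn) hm)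

lemma Reg.core (h : Reg s Cok Pok) {𝒜 : Set (Set Ω)} (hc : Cardinal.mk 𝒜 < Cardinal.continuum)
    {a b : Set Ω} (hab : a ⊆ b) (ha : Cok a) (hb : Pok b)
    (hm : ∀ m ∈ 𝒜, ¬ s.Null (m \ a) ∧ ¬ s.Null (b \ m)) :
    ∃ Z, a ⊆ Z ∧ Z ⊆ b ∧ (Cok Z ∧ Pok Z) ∧ ∀ m ∈ 𝒜, ¬ s.Null (m \ Z) ∧ ¬ s.Null (Z \ m) := by
  obtain ⟨Z, h1, h2, h3, h4, h5⟩ := h.split
    {q | q ∈ (fun m => (b \ a) ∩ m) '' 𝒜 ∪ (fun m => (b \ a) \ m) '' 𝒜 ∧ ¬ s.Null q}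
    (by
      refine lt_of_le_of_lt ((Cardinal.mk_le_mk_of_subset (fun q hq => hq.1)).trans
        (Cardinal.mk_union_le _ _)) ?_
      exact Cardinal.add_lt_of_lt Cardinal.aleph0_le_continuum
        (Cardinal.mk_image_le.trans_lt hc) (Cardinal.mk_image_le.trans_lt hc))
    (fun q hq => hq.2) a b hab ha hb
  refine ⟨Z, h1, h2, ⟨h3, h4⟩, fun m hm' => ⟨fun hn => ?_, fun hn => ?_⟩⟩
  · have h6 : ¬ s.Null ((b \ a) ∩ m) := fun h7 => (hm m hm').1 (hn.of_subset_union h7 fun x hx => by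
      by_cases hz : x ∈ Z
      · exact Or.inr ⟨⟨h2 hz, hx.2⟩, hx.1⟩
      · exact Or.inl ⟨hx.1, hz⟩)
    exact (h5 _ ⟨Or.inl ⟨m, hm', rfl⟩, h6⟩ inter_subset_left).2
      (hn.mono fun x hx => ⟨hx.1.2, hx.2⟩)
  · have h6 : ¬ s.Null ((b \ a) \ m) := fun h7 => (hm m hm').2 (hn.of_subset_union h7 fun x hx => by
      by_cases hz : x ∈ a
      · exact Or.inl ⟨h1 hz, hx.2⟩
      · exact Or.inr ⟨⟨hx.1, hz⟩, hx.2⟩)
    exact (h5 _ ⟨Or.inr ⟨m, hm', rfl⟩, h6⟩ sdiff_subset).1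
      (hn.mono fun x hx => ⟨hx.2, hx.1.2⟩)

lemma Reg.step (h : Reg s Cok Pok) (𝒜 : Set (Set Ω)) (p : Set Ω × Set Ω) :
    ∃ Z, (Cardinal.mk 𝒜 < Cardinal.continuum ∧ ∀ m ∈ 𝒜, Cok m ∧ Pok m) →
      (Cok Z ∧ Pok Z) ∧ (∀ m ∈ 𝒜, ¬ s.Null (m \ Z) ∧ ¬ s.Null (Z \ m)) ∧
      (p.1 ⊆ p.2 → ∃ m ∈ insert Z 𝒜,
        s.Null (m \ p.1) ∨ s.Null (p.2 \ m) ∨ (p.1 ⊆ m ∧ m ⊆ p.2)) := by
  obtain ⟨X, Y⟩ := p
  by_cases hg : Cardinal.mk 𝒜 < Cardinal.continuum ∧ ∀ m ∈ 𝒜, Cok m ∧ Pok m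
  swap
  · exact ⟨∅, fun h => absurd h hg⟩
  obtain ⟨hc, hok⟩ := hg
  have c0 : Cok ∅ := (h.dich ∅).resolve_right h.h0
  have p1 : Pok univ := (h.dich univ).resolve_left h.h1
  have n0 : ∀ m ∈ 𝒜, ¬ s.Null (m \ ∅) := fun m hm => by simpa using h.not_null (hok m hm).2
  have n1 : ∀ m ∈ 𝒜, ¬ s.Null (univ \ m) := fun m hm => by
    simpa [compl_eq_univ_sdiff] using h.not_conull (hok m hm).1
  by_cases hs : X ⊆ Y → ∃ m ∈ 𝒜, s.Null (m \ X) ∨ s.Null (Y \ m)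
  · obtain ⟨Z, -, -, h3, h4⟩ := h.core hc (empty_subset univ) c0 p1 fun m hm => ⟨n0 m hm, n1 m hm⟩
    refine ⟨Z, fun _ => ⟨h3, h4, fun hXY => ?_⟩⟩
    obtain ⟨m, hm, h5⟩ := hs hXY
    exact ⟨m, Or.inr hm, h5.imp_right Or.inl⟩
  simp only [not_forall, not_exists, not_and, not_or] at hs
  obtain ⟨hXY, hm⟩ := hs
  by_cases hX : Cok X
  · by_cases hY : Pok Y
    · obtain ⟨Z, h1, h2, h3, h4⟩ := h.core hc hXY hX hY hm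
      exact ⟨Z, fun _ => ⟨h3, h4, fun _ => ⟨Z, Or.inl rfl, Or.inr (Or.inr ⟨h1, h2⟩)⟩⟩⟩
    · obtain ⟨Z, h1, -, h3, h4⟩ := h.core hc (subset_univ Y) ((h.dich Y).resolve_right hY) p1
        fun m hm' => ⟨fun hn => hY (h.hP _ _ hn (hok m hm').2), n1 m hm'⟩
      exact ⟨Z, fun _ => ⟨h3, h4, fun _ =>
        ⟨Z, Or.inl rfl, Or.inr (Or.inl (Blk.null_sdiff_of_subset h1))⟩⟩⟩
  · obtain ⟨Z, -, h2, h3, h4⟩ := h.core hc (empty_subset X) c0 ((h.dich X).resolve_left hX)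
      fun m hm' => ⟨n0 m hm', fun hn => hX (h.hC _ _ hn (hok m hm').1)⟩
    exact ⟨Z, fun _ => ⟨h3, h4, fun _ =>
      ⟨Z, Or.inl rfl, Or.inl (Blk.null_sdiff_of_subset h2)⟩⟩⟩

lemma Reg.family {W : Type} [LinearOrder W] [WellFoundedLT W] (h : Reg s Cok Pok)
    (hW : ∀ w : W, Cardinal.mk (Iio w) < Cardinal.continuum)
    (e : W → Set Ω × Set Ω) (he : Function.Surjective e) :
    ∃ 𝒜 : Set (Set Ω), (∀ m ∈ 𝒜, Cok m ∧ Pok m) ∧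
      (∀ m ∈ 𝒜, ∀ m' ∈ 𝒜, s.Null (m \ m') → m = m') ∧
      ∀ X Y, X ⊆ Y → ∃ m ∈ 𝒜, s.Null (m \ X) ∨ s.Null (Y \ m) ∨ (X ⊆ m ∧ m ⊆ Y) := by
  choose step hstep using h.step
  let f : W → Set Ω := (wellFounded_lt (α := W)).fix
    fun w g => step (range fun v : Iio w => g v.1 v.2) (e w)
  let fam : W → Set (Set Ω) := fun w => range fun v : Iio w => f v.1
  have hf : ∀ w, f w = step (fam w) (e w) := fun w => WellFounded.fix_eq _ _ _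
  have key : ∀ w, Cardinal.mk (fam w) < Cardinal.continuum ∧ ∀ m ∈ fam w, Cok m ∧ Pok m := by
    intro w
    induction w using WellFoundedLT.induction with
    | _ w ih =>
      refine ⟨Cardinal.mk_range_le.trans_lt (hW w), ?_⟩
      rintro R ⟨v, rfl⟩
      simp only [hf]
      exact (hstep _ _ (ih v.1 v.2)).1
  have hinc : ∀ v w, v < w → ¬ s.Null (f v \ f w) ∧ ¬ s.Null (f w \ f v) := fun v w hvw => by
    have := (hstep _ (e w) (key w)).2.1 (f v) ⟨⟨v, hvw⟩, rfl⟩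
    rwa [← hf] at this
  refine ⟨range f, ?_, ?_, fun X Y hXY => ?_⟩
  · rintro _ ⟨w, rfl⟩
    rw [hf]; exact (hstep _ _ (key w)).1
  · rintro _ ⟨v, rfl⟩ _ ⟨w, rfl⟩ hn
    rcases lt_trichotomy v w with h | rfl | h
    · exact absurd hn (hinc v w h).1
    · rfl
    · exact absurd hn (hinc w v h).2
  · obtain ⟨w, hw⟩ := he (X, Y)
    have := (hstep _ (e w) (key w)).2.2
    rw [← hf, hw] at this
    obtain ⟨m, hm, h1⟩ := this hXY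
    refine ⟨m, ?_, h1⟩
    rcases hm with rfl | ⟨v, rfl⟩
    · exact ⟨w, rfl⟩
    · exact ⟨v, rfl⟩

theorem Reg.ties {W : Type} [LinearOrder W] [WellFoundedLT W] (h : Reg s Cok Pok)
    (hW : ∀ w : W, Cardinal.mk (Iio w) < Cardinal.continuum)
    (e : W → Set Ω × Set Ω) (he : Function.Surjective e) :
    ∃ T : Set (Set Ω), Ties T ∧ ∀ Z ∈ T, Cok Z ∧ Pok Z := by
  obtain ⟨𝒜, h1, h2, h3⟩ := h.family hW e he
  refine ⟨{Z | ∃ m ∈ 𝒜, s.Tie m Z}, ⟨?_, fun X Y hXY => ?_⟩, ?_⟩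
  · rintro Z ⟨m, hm, hZ⟩ Z' ⟨m', hm', hZ'⟩ hf
    obtain rfl := h2 m hm m' hm' (hZ.1.2.trans ((Blk.null_of_finite hf).trans hZ'.1.1))
    exact Blk.strict hZ.2.2 hZ'.2.1 hf
  · obtain ⟨m, hm, h4⟩ := h3 X Y hXY
    obtain ⟨Z, hZ, h5⟩ := Blk.chart_task (h.not_null (h1 m hm).2) (h.not_conull (h1 m hm).1) hXY h4
    exact ⟨Z, ⟨m, hm, hZ⟩, h5⟩
  · rintro Z ⟨m, hm, hZ⟩
    exact ⟨h.hC _ _ hZ.1.1 (h1 m hm).1, h.hP _ _ hZ.1.2 (h1 m hm).2⟩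

end Vale.Agent.P068
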