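import Vale.Agent.P068.ZThin
import Vale.Agent.P068.ZRec
import Vale.Agent.P068.Split
import Vale.Agent.P068.Ray

namespace Vale.Agent.P068

open Set Filter Sum

lemma exists_avoid {ι κ : Type} {I : Set ι} (hI : Cardinal.mk I < Cardinal.continuum)
    (hκ : Cardinal.mk κ = Cardinal.continuum) {F : ι → Set κ} (hF : ∀ i ∈ I, (F i).Finite) :
    ∃ θ, ∀ i ∈ I, θ ∉ F i := by
  by_contra hcon
  simp only [not_exists, not_forall, not_not] at hcon
  have h1 : (univ : Set κ) ⊆ ⋃ i : I, F i := fun θ _ => by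
    obtain ⟨i, hi, h⟩ := hcon θ
    exact mem_iUnion.2 ⟨⟨i, hi⟩, h⟩
  have h2 := (Cardinal.mk_le_mk_of_subset h1).trans (Cardinal.mk_iUnion_le _)
  rw [Cardinal.mk_univ, hκ] at h2
  refine absurd h2 (not_le.2 (Cardinal.mul_lt_of_lt Cardinal.aleph0_le_continuum hI ?_))
  refine lt_of_le_of_lt (ciSup_le' fun i => ?_) Cardinal.aleph0_lt_continuum
  exact (Cardinal.lt_aleph0_iff_set_finite.2 (hF i i.2)).le

lemma exists_ad {u : Set ℕ} (hu : u.Infinite) : ∃ A : Set ℕ → Set ℕ,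
    (∀ η, A η ⊆ u ∧ (A η).Infinite) ∧ ∀ η η', η ≠ η' → (A η ∩ A η').Finite := by
  classical
  obtain ⟨y, hy, hy'⟩ := exists_inj_choice (ι := ℕ × Finset ℕ) (fun _ => u) (fun _ => hu)
  let node : Set ℕ → ℕ → ℕ × Finset ℕ := fun η n => (n, (Finset.range n).filter (· ∈ η))
  refine ⟨fun η => range fun n => y (node η n), fun η => ⟨?_, ?_⟩, fun η η' hne => ?_⟩
  · rintro _ ⟨n, rfl⟩
    exact hy' _
  · exact infinite_range_of_injective fun a b hab => congrArg Prod.fst (hy hab)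
  · obtain ⟨k, hk⟩ : ∃ k, ¬ (k ∈ η ↔ k ∈ η') := by
      by_contra hcon
      push Not at hcon
      exact hne (Set.ext hcon)
    refine ((finite_le_nat k).image fun n => y (node η n)).subset ?_
    rintro x ⟨⟨n, rfl⟩, ⟨m, hm⟩⟩
    refine ⟨n, ?_, rfl⟩
    have h1 := hy hm
    simp only [node, Prod.mk.injEq] at h1
    obtain ⟨rfl, h2⟩ := h1
    by_contra hlt
    simp only [mem_ofPred_eq, not_le] at hlt
    have := Finset.ext_iff.1 h2 k
    simp only [Finset.mem_filter, Finset.mem_range, hlt, true_and] at this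
    exact hk this.symm

section
variable {W : Type} [LinearOrder W] (S : W → Set ℕ)

/-- descent condition for independent sets -/
def CokP (u t : Set ℕ) : Prop := ∀ ζ, S ζ ⊆ u → ∃ ξ < ζ, S ξ ⊆ t

/-- descent condition for spanning sets -/
def PokP (u t : Set ℕ) : Prop := ∀ k : ℕ, u.encard ≤ k → ∃ b : ℕ, b < k ∧ t.encard ≤ b

variable {S}

lemma CokP.mono {u u' t t' : Set ℕ} (h : CokP S u' t') (hu : u ⊆ u') (ht : t' ⊆ t) :
    CokP S u t := fun ζ hζ => by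
  obtain ⟨ξ, h1, h2⟩ := h ζ (hζ.trans hu)
  exact ⟨ξ, h1, h2.trans ht⟩

lemma PokP.mono {u u' t t' : Set ℕ} (h : PokP u t) (hu : u ⊆ u') (ht : t' ⊆ t) :
    PokP u' t' := fun k hk => by
  obtain ⟨b, h1, h2⟩ := h k ((encard_le_encard hu).trans hk)
  exact ⟨b, h1, (encard_le_encard ht).trans h2⟩

lemma cokP_of_finite (hS : ∀ ζ, (S ζ).Infinite) {u : Set ℕ} (hu : u.Finite) (t : Set ℕ) :
    CokP S u t := fun ζ hζ => absurd (hu.subset hζ) (hS ζ)

lemma pokP_of_infinite {u : Set ℕ} (hu : u.Infinite) (t : Set ℕ) : PokP u t :=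
  fun _ hk => absurd (finite_of_encard_le_coe hk) hu

lemma no_jump (hW : ∀ w : W, Cardinal.mk (Iio w) < Cardinal.continuum)
    (hS : ∀ ζ, (S ζ).Infinite) (hcov : ∀ A : Set ℕ, A.Infinite → ∃ ζ, S ζ = A)
    {u u' : Set ℕ} (hu : u.Finite) (hu' : u'.Infinite) (huu : u ⊆ u') (t : Set ℕ) :
    ∃ v, u ⊆ v ∧ v ⊆ u' ∧ CokP S v t ∧ PokP v t := by
  by_cases ht : t.Finite
  · obtain ⟨F, h1, h2, h3⟩ := hu'.exists_subset_ncard_eq (t.ncard + 1)
    refine ⟨u ∪ F, subset_union_left, union_subset huu h1, cokP_of_finite hS (hu.union h2) t,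
      fun k hk => ⟨t.ncard, ?_, ht.cast_ncard_eq.ge⟩⟩
    have h4 := (encard_le_encard subset_union_right).trans hk
    rw [← h2.cast_ncard_eq, h3] at h4
    exact_mod_cast h4
  · obtain ⟨a, ha⟩ := hcov t ht
    obtain ⟨A, hA, hAd⟩ := exists_ad hu'
    have hI : Cardinal.mk (Iic a) < Cardinal.continuum := by
      rw [← Iio_insert]
      exact Cardinal.mk_insert_le.trans_lt (Cardinal.add_lt_of_lt Cardinal.aleph0_le_continuum
        (hW a) (Cardinal.one_lt_aleph0.trans Cardinal.aleph0_lt_continuum))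
    obtain ⟨η, hη⟩ := exists_avoid (κ := Set ℕ) hI (by simp)
      (F := fun ζ => {η | S ζ ⊆ u ∪ A η}) (fun ζ _ => Subsingleton.finite fun η h1 η' h2 => by
        by_contra hne
        refine hS ζ ((hu.union (hAd η η' hne)).subset ?_)
        rw [union_inter_distrib_left]
        exact subset_inter h1 h2)
    refine ⟨u ∪ A η, subset_union_left, union_subset huu (hA η).1, fun ζ hζ => ⟨a, ?_, ha.le⟩,
      pokP_of_infinite ((hA η).2.mono subset_union_right) t⟩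
    by_contra hlt
    exact hη ζ (not_lt.1 hlt) hζ

/-- the homomorphism given by a sequence of ultrafilters -/
def hom (V : ℕ → Ultrafilter ℕ) (A : Set ℕ) : Set ℕ := {n | A ∈ V n}

variable {V : ℕ → Ultrafilter ℕ}

lemma hom_subset {A B : Set ℕ} (h : ∀ n, A \ B ∉ V n) : hom V A ⊆ hom V B := by
  intro n hn
  have : B ∪ (A \ B) ∈ V n := mem_of_superset hn (by simp)
  exact (Ultrafilter.union_mem_iff.1 this).resolve_right (h n)

lemma hom_mono {A B : Set ℕ} (h : A ⊆ B) : hom V A ⊆ hom V B :=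
  fun _ hn => mem_of_superset hn h

lemma hom_empty : hom V ∅ = ∅ := eq_empty_iff_forall_notMem.2 fun n => (V n).empty_notMem

lemma hom_univ : hom V univ = univ := eq_univ_iff_forall.2 fun _ => univ_mem

lemma hom_lift {l : ℕ → ℕ} (hl : ∀ n, {x | l x = n} ∈ V n) {A B v : Set ℕ} (hAB : A ⊆ B)
    (h1 : hom V A ⊆ v) (h2 : v ⊆ hom V B) : ∃ C, A ⊆ C ∧ C ⊆ B ∧ hom V C = v := by
  refine ⟨A ∪ (B ∩ {x | l x ∈ v}), subset_union_left, union_subset hAB inter_subset_left, ?_⟩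
  ext n
  constructor
  · intro hn
    rcases Ultrafilter.union_mem_iff.1 hn with h | h
    · exact h1 h
    · obtain ⟨x, hx1, hx2⟩ := Ultrafilter.nonempty_of_mem (inter_mem h (hl n))
      exact hx2 ▸ hx1.2
  · intro hn
    refine mem_of_superset (inter_mem (h2 hn) (hl n)) fun x hx => Or.inr ⟨hx.1, ?_⟩
    have : l x = n := hx.2
    simpa [this] using hn

variable (S V)

/-- the sets allowed to be independent -/
def Cok (X : Set (ℕ ⊕ ℕ)) : Prop := CokP S (hom V (inl ⁻¹' X)) (hom V (inr ⁻¹' X)ᶜ)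

/-- the sets allowed to be spanning -/
def Pok (X : Set (ℕ ⊕ ℕ)) : Prop := PokP (hom V (inl ⁻¹' X)) (hom V (inr ⁻¹' X)ᶜ)

/-- sets invisible to the ultrafilters -/
def Tiny (N : Set (ℕ ⊕ ℕ)) : Prop := ∀ n, inl ⁻¹' N ∉ V n ∧ inr ⁻¹' N ∉ V n

variable {S V}

lemma Tiny.hom {X Y : Set (ℕ ⊕ ℕ)} (h : Tiny V (X \ Y)) :
    hom V (inl ⁻¹' X) ⊆ hom V (inl ⁻¹' Y) ∧ hom V (inr ⁻¹' Y)ᶜ ⊆ hom V (inr ⁻¹' X)ᶜ :=
  ⟨hom_subset fun n => (h n).1, hom_subset fun n hn => (h n).2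
    (mem_of_superset hn fun _ hx => ⟨not_not.1 hx.2, hx.1⟩)⟩

lemma Tiny.cok {X Y : Set (ℕ ⊕ ℕ)} (h : Tiny V (X \ Y)) (hY : Cok S V Y) : Cok S V X :=
  CokP.mono hY h.hom.1 h.hom.2

lemma Tiny.pok {X Y : Set (ℕ ⊕ ℕ)} (h : Tiny V (X \ Y)) (hX : Pok V X) : Pok V Y :=
  PokP.mono hX h.hom.1 h.hom.2

lemma between (hW : ∀ w : W, Cardinal.mk (Iio w) < Cardinal.continuum)
    (hS : ∀ ζ, (S ζ).Infinite) (hcov : ∀ A : Set ℕ, A.Infinite → ∃ ζ, S ζ = A)
    {l : ℕ → ℕ} (hl : ∀ n, {x | l x = n} ∈ V n) {a b : Set (ℕ ⊕ ℕ)} (hab : a ⊆ b)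
    (ha : Cok S V a) (hb : Pok V b) : ∃ Z, a ⊆ Z ∧ Z ⊆ b ∧ Cok S V Z ∧ Pok V Z := by
  by_cases h1 : Pok V a
  · exact ⟨a, subset_rfl, hab, ha, h1⟩
  by_cases h2 : Cok S V b
  · exact ⟨b, hab, subset_rfl, h2, hb⟩
  obtain ⟨v, h3, h4, h5, h6⟩ := no_jump hW hS hcov
    (not_infinite.1 fun h => h1 (pokP_of_infinite h _)) (fun h => h2 (cokP_of_finite hS h _))
    (hom_mono (preimage_mono hab)) (hom V (inr ⁻¹' a)ᶜ)
  obtain ⟨C, h7, h8, rfl⟩ := hom_lift hl (preimage_mono hab) h3 h4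
  refine ⟨pr C (inr ⁻¹' a), ?_, ?_, h5, h6⟩
  · rintro (x | x) hx
    · exact h7 hx
    · exact hx
  · rintro (x | x) hx
    · exact h8 hx
    · exact hab hx

lemma reg (hW : ∀ w : W, Cardinal.mk (Iio w) < Cardinal.continuum)
    (hS : ∀ ζ, (S ζ).Infinite) (hcov : ∀ A : Set ℕ, A.Infinite → ∃ ζ, S ζ = A)
    {l : ℕ → ℕ} (hl : ∀ n, {x | l x = n} ∈ V n) {s : Blk ℕ} {val : (ℕ → Bool) → ℕ → Fin 3}
    (hind : Ind s val) (h2 : ∀ n θ, {x | val θ x = 2} ∈ V n)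
    (hN : ∀ n N, s.Null N → N ∉ V n) : Reg s.dbl (Cok S V) (Pok V) := by
  have hnull : ∀ N, s.dbl.Null N → Tiny V N := fun N h n =>
    ⟨hN n _ (dbl_null.1 h).1, hN n _ (dbl_null.1 h).2⟩
  have hthin : ∀ θ (i : Fin 3), i ≠ 2 → ∀ N, N ⊆ {x | val θ (Sum.elim id id x) = i} →
      Tiny V N := by
    intro θ i hi N hNs n
    constructor <;> intro h <;>
      obtain ⟨x, hx1, hx2⟩ := Ultrafilter.nonempty_of_mem (inter_mem h (h2 n θ)) <;>
      exact hi ((hNs hx1).symm.trans hx2)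
  refine ⟨fun X Y h => (hnull _ h).cok, fun X Y h => (hnull _ h).pok, fun X => ?_, fun h => ?_,
    fun h => ?_, fun 𝒬 hc hq a b hab ha hb => ?_⟩
  · by_cases h : (hom V (inl ⁻¹' X)).Finite
    · exact Or.inl (cokP_of_finite hS h _)
    · exact Or.inr (pokP_of_infinite h _)
  · obtain ⟨b, hb, -⟩ := h 0 (by simp [hom_empty])
    omega
  · obtain ⟨ζ, hζ⟩ := hcov univ infinite_univ
    obtain ⟨ξ, -, hξ⟩ := h ζ (by simp [hom_univ])
    simp only [preimage_univ, compl_univ, hom_empty] at hξ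
    exact hS ξ (finite_empty.subset hξ)
  · obtain ⟨θ, hθ⟩ := exists_avoid (κ := ℕ → Bool) hc (by simp)
      (F := fun q => {θ | s.dbl.Null (q ∩ {x | val θ (Sum.elim id id x) = 0})} ∪
        {θ | s.dbl.Null (q ∩ {x | val θ (Sum.elim id id x) = 1})})
      (fun q h => (hind.thin_dbl 0 (hq q h)).union (hind.thin_dbl 1 (hq q h)))
    obtain ⟨Z, h3, h4, h5, h6⟩ := between hW hS hcov hl
      (a := a ∪ (b ∩ {x | val θ (Sum.elim id id x) = 0}))
      (b := a ∪ (b \ {x | val θ (Sum.elim id id x) = 1}))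
      (union_subset_union_right _ fun x hx => ⟨hx.1, fun h => by
        have := hx.2.symm.trans h
        simp at this⟩)
      ((hthin θ 0 (by decide) _ fun x hx => (hx.1.resolve_left hx.2).2).cok ha)
      ((hthin θ 1 (by decide) _ fun x hx => by_contra fun h => hx.2 (Or.inr ⟨hx.1, h⟩)).pok hb)
    refine ⟨Z, subset_union_left.trans h3, h4.trans (union_subset hab sdiff_subset), h5, h6,
      fun q hq' hqs => ⟨fun hn => hθ q hq' (Or.inl (hn.mono fun x hx => ?_)),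
        fun hn => hθ q hq' (Or.inr (hn.mono fun x hx => ?_))⟩⟩
    · exact ⟨hx.1, h3 (Or.inr ⟨(hqs hx.1).1, hx.2⟩)⟩
    · exact ⟨hx.1, fun hz => (h4 hz).elim (hqs hx.1).2 fun h => h.2 hx.2⟩

end

theorem gadget_zfc : Nonempty Gadget := by
  let W : Type := Cardinal.continuum.ord.ToType
  have hW : ∀ w : W, Cardinal.mk (Iio w) < Cardinal.continuum := fun w => by
    have h1 := Cardinal.mk_Iio_lt w (by simp [W])
    rwa [Cardinal.mk_ord_toType] at h1
  obtain ⟨e⟩ : Nonempty (W ≃ Set (ℕ ⊕ ℕ) × Set (ℕ ⊕ ℕ)) := by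
    rw [← Cardinal.eq]
    simp [W]
  have hex : ∀ w : W, ∃ A : Set ℕ, A.Infinite ∧
      ((inl ⁻¹' (e w).1).Infinite → A = inl ⁻¹' (e w).1) := by
    intro w
    by_cases h : (inl ⁻¹' (e w).1).Infinite
    · exact ⟨_, h, fun _ => rfl⟩
    · exact ⟨univ, infinite_univ, fun h' => absurd h' h⟩
  choose S hS hS1 using hex
  have hcov : ∀ A : Set ℕ, A.Infinite → ∃ ζ, S ζ = A := fun A hA =>
    ⟨e.symm (pr A ∅, ∅), by
      have := hS1 (e.symm (pr A ∅, ∅))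
      rw [e.apply_symm_apply] at this
      exact this hA⟩
  obtain ⟨s, val, hind⟩ := exists_sys
  choose V hl h2 hN using hind.exists_uf
  have hreg := reg hW hS hcov hl hind h2 hN
  obtain ⟨T, hT, hok⟩ := hreg.ties hW e e.surjective
  refine ⟨⟨hT.matroid, rfl, hT.unif, W, (· < ·), wellFounded_lt, ℕ, (· < ·), wellFounded_lt,
    fun ζ A => S ζ ⊆ hom V A, fun k A => (hom V A).encard ≤ k,
    fun a A B h1 h2 => h1.trans (hom_mono h2),
    fun a A B h1 h2 => (encard_le_encard (hom_mono h2)).trans h1, fun a h => ?_,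
    fun a h => ?_, fun A => ?_, ?_, ?_⟩⟩
  · rw [hom_empty] at h
    exact hS a (finite_empty.subset h)
  · rw [hom_univ] at h
    exact infinite_univ (finite_of_encard_le_coe h)
  · by_cases h : (hom V A).Infinite
    · obtain ⟨ζ, hζ⟩ := hcov _ h
      exact Or.inl ⟨ζ, hζ.le⟩
    · exact Or.inr ⟨(hom V A).ncard, (not_infinite.1 h).cast_ncard_eq.ge⟩
  · intro u w k hs hk
    obtain ⟨B, hB, hBs⟩ := hs.exists_isBase_subset
    obtain ⟨Z, hZ, -, h3⟩ := hT.base_near hB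
    exact hreg.hP Z (pr u w) (Blk.null_of_finite (h3.subset (sdiff_subset_sdiff_right hBs)))
      (hok Z hZ).2 k hk
  · intro u w ζ hi hζ
    obtain ⟨B, hB, hBs⟩ := hi.exists_isBase_superset
    obtain ⟨Z, hZ, h3, -⟩ := hT.base_near hB
    exact hreg.hC (pr u w) Z (Blk.null_of_finite (h3.subset (sdiff_subset_sdiff_left hBs)))
      (hok Z hZ).1 ζ hζ

end Vale.Agent.P068
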