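import Vale.Agent.P068.ZChart

namespace Vale.Agent.P068

open Set Filter Sum

/-- the colourings `val θ` are asymptotically independent and uniform on the blocks -/
def Ind (s : Blk ℕ) (val : (ℕ → Bool) → ℕ → Fin 3) : Prop :=
  ∀ (T : Finset (ℕ → Bool)) (c : Finset (Fin 3)), ∀ᶠ j in atTop,
    s.cnt j {x | ∀ θ ∈ T, val θ x ∈ c} * 3 ^ T.card = c.card ^ T.card * s.size j

lemma count_pi {κ : Type} [Fintype κ] [DecidableEq κ] (T : Finset κ) (c : Finset (Fin 3)) :
    {x : κ → Fin 3 | ∀ t ∈ T, x t ∈ c}.ncard * 3 ^ T.card =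
      c.card ^ T.card * 3 ^ Fintype.card κ := by
  have e : {x : κ → Fin 3 | ∀ t ∈ T, x t ∈ c} =
      ↑(Fintype.piFinset fun t => if t ∈ T then c else Finset.univ) := by
    ext x
    simp only [mem_ofPred_eq, Finset.mem_coe, Fintype.mem_piFinset]
    refine forall_congr' fun t => ?_
    split_ifs with h <;> simp [h]
  have e1 : ∀ a : ℕ, a ^ T.card = ∏ t, if t ∈ T then a else 1 := fun a => by
    rw [Finset.prod_ite_mem]; simp
  rw [e, ncard_coe_finset, Fintype.card_piFinset, e1, e1, ← Finset.card_univ, ← Finset.prod_const,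
    ← Finset.prod_mul_distrib, ← Finset.prod_mul_distrib]
  refine Finset.prod_congr rfl fun t _ => ?_
  split_ifs <;> simp

lemma sq_le_three_pow (j : ℕ) : j * j ≤ 3 ^ j := by
  induction j with
  | zero => simp
  | succ j ih =>
    have := Nat.lt_pow_self (n := j) (show 1 < 3 by norm_num)
    rw [pow_succ]
    nlinarith

theorem exists_sys : ∃ (s : Blk ℕ) (val : (ℕ → Bool) → ℕ → Fin 3), Ind s val := by
  classical
  let E : Type := Σ j : ℕ, ((Fin j → Bool) → Fin 3)
  have : Infinite E := Infinite.of_surjective Sigma.fst fun j => ⟨⟨j, fun _ => 0⟩, rfl⟩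
  obtain ⟨e⟩ := nonempty_equiv_of_countable (α := ℕ) (β := E)
  have him : ∀ (P : E → Prop) (j : ℕ), {n | P (e n)} ∩ {n | (e n).1 = j} =
      (fun x => e.symm ⟨j, x⟩) '' {x | P ⟨j, x⟩} := by
    intro P j
    ext n
    constructor
    · rintro ⟨h1, h2⟩
      obtain ⟨⟨i, x⟩, rfl⟩ := e.symm.surjective n
      simp only [mem_ofPred_eq, Equiv.apply_symm_apply] at h1 h2
      subst h2
      exact ⟨x, h1, rfl⟩
    · rintro ⟨x, hx, rfl⟩
      simpa using hx
  have hcard : ∀ (P : E → Prop) (j : ℕ), ({n | P (e n)} ∩ {n | (e n).1 = j}).ncard =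
      {x | P ⟨j, x⟩}.ncard := fun P j => by
    rw [him]
    exact ncard_image_of_injective _ (e.symm.injective.comp sigma_mk_injective)
  have hsize : ∀ j, {n | (e n).1 = j}.ncard = 3 ^ Fintype.card (Fin j → Bool) := fun j => by
    have := hcard (fun _ => True) j
    simpa using this
  refine ⟨⟨fun n => (e n).1, fun j => ?_, fun j => ?_, id, Function.injective_id⟩,
    fun θ n => (e n).2 fun i => θ i, fun T c => ?_⟩
  · have := him (fun _ => True) j
    simp only [ofPred_true, univ_inter] at this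
    rw [this]
    exact (toFinite _).image _
  · rw [hsize]
    refine (sq_le_three_pow j).trans (Nat.pow_le_pow_right (by norm_num) ?_)
    simpa using (Nat.lt_two_pow_self (n := j)).le
  · have hinj : ∀ᶠ j in atTop, ∀ θ ∈ T, ∀ θ' ∈ T,
        (fun i : Fin j => θ i) = (fun i : Fin j => θ' i) → θ = θ' := by
      simp only [eventually_all_finset]
      intro θ _ θ' _
      by_cases h : θ = θ'
      · exact Eventually.of_forall fun j _ => h
      · obtain ⟨k, hk⟩ := Function.ne_iff.1 h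
        filter_upwards [eventually_gt_atTop k] with j hj h'
        exact absurd (congrFun h' ⟨k, hj⟩) hk
    filter_upwards [hinj] with j hj
    have h1 := count_pi (T.image fun θ (i : Fin j) => θ i) c
    rw [Finset.card_image_of_injOn fun θ h θ' h' => hj θ h θ' h'] at h1
    simp only [Blk.cnt, Blk.size]
    rw [hsize, ← h1, hcard (fun p => ∀ θ ∈ T, p.2 (fun i => θ i) ∈ c)]
    simp

variable {s : Blk ℕ} {val : (ℕ → Bool) → ℕ → Fin 3}

lemma null_biUnion {Ω ι : Type*} {s : Blk Ω} (T : Finset ι) {f : ι → Set Ω}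
    (h : ∀ i ∈ T, s.Null (f i)) : s.Null (⋃ i ∈ T, f i) := by
  classical
  induction T using Finset.induction_on with
  | empty => simpa using Blk.null_empty
  | insert a T _ ih =>
    rw [Finset.set_biUnion_insert]
    exact (h a (Finset.mem_insert_self _ _)).union
      (ih fun i hi => h i (Finset.mem_insert_of_mem hi))

lemma exists_pow (K : ℕ) : ∃ k, K * 2 ^ k ≤ 3 ^ k := by
  have : ∀ k, k * 2 ^ k ≤ 2 * 3 ^ k ∧ 2 ^ k ≤ 3 ^ k := by
    intro k
    induction k with
    | zero => simp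
    | succ k ih =>
      rw [pow_succ, pow_succ]
      exact ⟨by nlinarith [ih.1, ih.2], Nat.mul_le_mul ih.2 (by norm_num)⟩
  refine ⟨2 * K, ?_⟩
  have := (this (2 * K)).1
  nlinarith

lemma Ind.thin (h : Ind s val) (i : Fin 3) {q : Set ℕ} (hq : ¬ s.Null q) :
    {θ | s.Null (q ∩ {x | val θ x = i})}.Finite := by
  by_contra hinf
  apply hq
  intro K
  obtain ⟨k, hk⟩ := exists_pow (2 * K)
  obtain ⟨T, hT, hTc⟩ := Set.Infinite.exists_subset_card_eq hinf k
  have hU := null_biUnion (s := s) T (f := fun θ => q ∩ {x | val θ x = i}) fun θ hθ => hT hθ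
  filter_upwards [hU (2 * K), h T (Finset.univ.erase i)] with j h1 h2
  have h3 := Blk.cnt_le_add (s := s) (j := j) (N := q) (A := ⋃ θ ∈ T, q ∩ {x | val θ x = i})
    (B := {x | ∀ θ ∈ T, val θ x ∈ Finset.univ.erase i}) (by
      intro x hx
      by_cases hc : ∃ θ ∈ T, val θ x = i
      · obtain ⟨θ, h1, h2⟩ := hc
        exact Or.inl (mem_biUnion (s := (T : Set (ℕ → Bool))) h1 ⟨hx, h2⟩)
      · exact Or.inr fun θ hθ => Finset.mem_erase.2 ⟨fun e => hc ⟨θ, hθ, e⟩, Finset.mem_univ _⟩)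
  rw [hTc, Finset.card_erase_of_mem (Finset.mem_univ _), Finset.card_univ, Fintype.card_fin] at h2
  set r := s.cnt j {x | ∀ θ ∈ T, val θ x ∈ Finset.univ.erase i}
  have h4 : 2 * K * r ≤ s.size j := by
    refine Nat.le_of_mul_le_mul_right ?_ (show 0 < 3 ^ k by positivity)
    calc 2 * K * r * 3 ^ k = 2 * K * (r * 3 ^ k) := by ring
      _ = (2 * K * 2 ^ k) * s.size j := by rw [h2]; ring
      _ ≤ 3 ^ k * s.size j := Nat.mul_le_mul_right _ hk
      _ = _ := by ring
  have h5 := Nat.mul_le_mul_left (2 * K) h3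
  nlinarith

lemma Ind.exists_uf (h : Ind s val) (n : ℕ) : ∃ V : Ultrafilter ℕ,
    {x | (s.blk x).unpair.1 = n} ∈ V ∧ (∀ θ, {x | val θ x = 2} ∈ V) ∧
      ∀ N, s.Null N → N ∉ V := by
  classical
  let R : Finset (ℕ → Bool) → Set ℕ := fun T =>
    {x | (s.blk x).unpair.1 = n} ∩ {x | ∀ θ ∈ T, val θ x ∈ ({2} : Finset (Fin 3))}
  have hR : ∀ T, ¬ s.Null (R T) := by
    intro T hn
    have hfr : ∃ᶠ j : ℕ in atTop, j.unpair.1 = n := frequently_atTop.2 fun a =>
      ⟨Nat.pair n a, Nat.right_le_pair n a, by simp⟩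
    obtain ⟨j, h1, h2, h3, h4⟩ := (hfr.and_eventually ((hn (3 ^ T.card + 1)).and
      ((h T {2}).and (eventually_gt_atTop 0)))).exists
    have h5 : s.cnt j (R T) = s.cnt j {x | ∀ θ ∈ T, val θ x ∈ ({2} : Finset (Fin 3))} := by
      unfold Blk.cnt
      congr 1
      ext x
      exact and_congr_left fun hx => and_iff_right (by
        simp only [mem_ofPred_eq] at hx ⊢; rw [hx, h1])
    have h6 := Blk.self_le_size (s := s) j
    rw [← h5, Finset.card_singleton, one_pow, one_mul] at h3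
    have h7 : s.cnt j (R T) = 0 := by nlinarith
    rw [h7] at h3
    omega
  let F : Filter ℕ :=
    { sets := {A | ∃ T, s.Null (R T \ A)}
      univ_sets := ⟨∅, Blk.null_sdiff_of_subset (subset_univ _)⟩
      sets_of_superset := fun ⟨T, hT⟩ hAB => ⟨T, hT.mono (sdiff_subset_sdiff_right hAB)⟩
      inter_sets := fun {A B} ⟨T, hT⟩ ⟨T', hT'⟩ => ⟨T ∪ T', hT.of_subset_union hT' fun x hx => by
        by_cases hA : x ∈ A
        · exact Or.inr ⟨⟨hx.1.1, fun θ hθ => hx.1.2 θ (Finset.mem_union_right _ hθ)⟩,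
            fun hB => hx.2 ⟨hA, hB⟩⟩
        · exact Or.inl ⟨⟨hx.1.1, fun θ hθ => hx.1.2 θ (Finset.mem_union_left _ hθ)⟩, hA⟩⟩ }
  have hF : F.NeBot := by
    rw [neBot_iff, Ne, ← empty_mem_iff_bot]
    rintro ⟨T, hT⟩
    exact hR T (by simpa using hT)
  obtain ⟨V, hV⟩ := Ultrafilter.exists_le F
  refine ⟨V, hV ⟨∅, Blk.null_sdiff_of_subset inter_subset_left⟩, fun θ => hV ⟨{θ},
    Blk.null_sdiff_of_subset fun x hx => by simpa using hx.2⟩, fun N hN hNV => ?_⟩
  have : Nᶜ ∈ V := hV ⟨∅, hN.mono fun x hx => not_not.1 hx.2⟩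
  exact Ultrafilter.compl_mem_iff_notMem.1 this hNV

lemma ncard_sum {X : Set (ℕ ⊕ ℕ)} (h1 : (inl ⁻¹' X).Finite) (h2 : (inr ⁻¹' X).Finite) :
    X.ncard = (inl ⁻¹' X).ncard + (inr ⁻¹' X).ncard := by
  conv_lhs => rw [← image_preimage_inl_union_image_preimage_inr X]
  rw [ncard_union_eq (disjoint_left.2 (by rintro _ ⟨a, -, rfl⟩ ⟨b, -, h⟩; cases h))
    (h1.image _) (h2.image _), ncard_image_of_injective _ inl_injective,
    ncard_image_of_injective _ inr_injective]

/-- two copies of the blocks -/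
def Blk.dbl (s : Blk ℕ) : Blk (ℕ ⊕ ℕ) where
  blk := Sum.elim s.blk s.blk
  fin j := by
    rw [← image_preimage_inl_union_image_preimage_inr {x | Sum.elim s.blk s.blk x = j}]
    exact ((s.fin j).image _).union ((s.fin j).image _)
  big j := by
    rw [ncard_sum (X := {x | Sum.elim s.blk s.blk x = j}) (s.fin j) (s.fin j)]
    exact (s.big j).trans (Nat.le_add_right _ _)
  idx := Encodable.encode
  inj := Encodable.encode_injective

lemma dbl_cnt (j : ℕ) (X : Set (ℕ ⊕ ℕ)) :
    s.dbl.cnt j X = s.cnt j (inl ⁻¹' X) + s.cnt j (inr ⁻¹' X) :=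
  ncard_sum ((s.fin j).subset inter_subset_right) ((s.fin j).subset inter_subset_right)

lemma dbl_size (j : ℕ) : s.dbl.size j = s.size j + s.size j :=
  ncard_sum (s.fin j) (s.fin j)

lemma dbl_null {X : Set (ℕ ⊕ ℕ)} :
    s.dbl.Null X ↔ s.Null (inl ⁻¹' X) ∧ s.Null (inr ⁻¹' X) := by
  constructor
  · intro h
    constructor <;> intro k <;> filter_upwards [h (2 * k)] with j hj <;>
      rw [dbl_cnt, dbl_size] at hj <;> nlinarith [Nat.zero_le (k * s.cnt j (inl ⁻¹' X)),
        Nat.zero_le (k * s.cnt j (inr ⁻¹' X))]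
  · intro h k
    filter_upwards [h.1 k, h.2 k] with j h1 h2
    rw [dbl_cnt, dbl_size]
    nlinarith

lemma Ind.thin_dbl (h : Ind s val) (i : Fin 3) {q : Set (ℕ ⊕ ℕ)} (hq : ¬ s.dbl.Null q) :
    {θ | s.dbl.Null (q ∩ {x | val θ (Sum.elim id id x) = i})}.Finite := by
  rw [dbl_null, not_and_or] at hq
  rcases hq with hq | hq
  · exact (h.thin i hq).subset fun θ hθ => (dbl_null.1 hθ).1
  · exact (h.thin i hq).subset fun θ hθ => (dbl_null.1 hθ).2

end Vale.Agent.P068
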